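import Mathlib

namespace Vale.Agent.P069

/-- The label of the root of the tree containing the node `t` (a node is a nonempty list,
its parent is its tail, the root is the last entry). -/
def lab (t : List ℕ) : ℕ := t.getLastD 0

/-- Nodes of the forest: the tree with root label `n` has `n + 1` levels. -/
def good (t : List ℕ) : Prop := t.length ≤ lab t + 1

/-- `t` lies in the half-open segment `(p, b]`. -/
def inSeg (p b t : List ℕ) : Prop := p <:+ t ∧ t ≠ p ∧ t <:+ b

/-- A finite family of pairwise disjoint segments. -/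
def IsFam (F : Finset (List ℕ × List ℕ)) : Prop :=
  (∀ q ∈ F, q.1 <:+ q.2 ∧ q.1 ≠ q.2 ∧ good q.2) ∧
  ∀ q ∈ F, ∀ q' ∈ F, q ≠ q' → ∀ t, inSeg q.1 q.2 t → ¬ inSeg q'.1 q'.2 t

/-- `η` has square variation at most `M` along families of disjoint segments. -/
def V2 (η : List ℕ → ℝ) (M : ℝ) : Prop :=
  ∀ F, IsFam F → ∑ q ∈ F, (η q.2 - η q.1) ^ 2 ≤ M

lemma lab_suffix {p b : List ℕ} (h : p <:+ b) (hp : p ≠ []) : lab p = lab b := by
  obtain ⟨l, rfl⟩ := h
  induction p using List.reverseRecOn with
  | nil => exact absurd rfl hp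
  | append_singleton p' a _ =>
    unfold lab
    rw [← List.append_assoc]
    simp

lemma good_nil : good [] := by simp [good]

lemma good_single (n : ℕ) : good [n] := by simp [good]

lemma good_suffix {p b : List ℕ} (h : p <:+ b) (hb : good b) : good p := by
  by_cases hp : p = []
  · subst hp; exact good_nil
  · unfold good at *
    rw [lab_suffix h hp]
    exact h.length_le.trans hb

lemma good_tail {c : ℕ} {s : List ℕ} (hb : good (c :: s)) : good s :=
  good_suffix (List.suffix_cons c s) hb

/-- Two suffixes of the same list are comparable. -/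
lemma suffix_comp {a b t : List ℕ} (ha : a <:+ t) (hb : b <:+ t) : a <:+ b ∨ b <:+ a := by
  rcases le_total a.length b.length with h | h
  · exact Or.inl (List.suffix_of_suffix_length_le ha hb h)
  · exact Or.inr (List.suffix_of_suffix_length_le hb ha h)

lemma suffix_antisymm {a b : List ℕ} (h1 : a <:+ b) (h2 : b <:+ a) : a = b :=
  h1.eq_of_length (le_antisymm h1.length_le h2.length_le)

lemma inSeg_self {p b : List ℕ} (h : p <:+ b) (hne : p ≠ b) : inSeg p b b :=
  ⟨h, fun e => hne e.symm, List.suffix_refl b⟩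

lemma V2.sum_le {η : List ℕ → ℝ} {M : ℝ} (h : V2 η M) {ι : Type*} (I : Finset ι)
    (P B : ι → List ℕ) (hs : ∀ i ∈ I, P i <:+ B i) (hg : ∀ i ∈ I, good (B i))
    (hd : ∀ i ∈ I, ∀ j ∈ I, i ≠ j → ∀ t, inSeg (P i) (B i) t → ¬ inSeg (P j) (B j) t) :
    ∑ i ∈ I, (η (B i) - η (P i)) ^ 2 ≤ M := by
  classical
  set I' := I.filter (fun i => P i ≠ B i) with hI'
  have h1 : ∑ i ∈ I, (η (B i) - η (P i)) ^ 2 = ∑ i ∈ I', (η (B i) - η (P i)) ^ 2 := by
    rw [hI', Finset.sum_filter_of_ne]
    intro i _ hne heq
    apply hne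
    rw [heq]; ring
  have hinj : Set.InjOn (fun i => (P i, B i)) (I' : Set ι) := by
    intro i hi j hj hij
    by_contra hne
    rw [hI'] at hi hj
    simp only [Finset.coe_filter, Set.mem_ofPred_eq] at hi hj
    simp only [Prod.mk.injEq] at hij
    have hseg := inSeg_self (hs i hi.1) hi.2
    refine hd i hi.1 j hj.1 hne (B i) hseg ?_
    rw [← hij.1, ← hij.2]; exact hseg
  rw [h1]
  have h2 := h (I'.image (fun i => (P i, B i))) ?_
  · rw [Finset.sum_image hinj] at h2
    exact h2
  · refine ⟨?_, ?_⟩
    · intro q hq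
      obtain ⟨i, hi, rfl⟩ := Finset.mem_image.1 hq
      rw [hI', Finset.mem_filter] at hi
      exact ⟨hs i hi.1, hi.2, hg i hi.1⟩
    · intro q hq q' hq' hne
      obtain ⟨i, hi, rfl⟩ := Finset.mem_image.1 hq
      obtain ⟨j, hj, rfl⟩ := Finset.mem_image.1 hq'
      rw [hI', Finset.mem_filter] at hi hj
      have hij : i ≠ j := by
        rintro rfl
        exact hne rfl
      exact hd i hi.1 j hj.1 hij

lemma V2.mono {η : List ℕ → ℝ} {M M' : ℝ} (h : V2 η M) (hM : M ≤ M') : V2 η M' :=
  fun F hF => (h F hF).trans hM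

lemma V2.nonneg {η : List ℕ → ℝ} {M : ℝ} (h : V2 η M) : 0 ≤ M := by
  have := h ∅ ⟨by simp, by simp⟩
  simpa using this

lemma V2.sq_le {η : List ℕ → ℝ} {M : ℝ} (h : V2 η M) {p b : List ℕ} (hs : p <:+ b)
    (hb : good b) : (η b - η p) ^ 2 ≤ M := by
  have := h.sum_le (I := ({()} : Finset Unit)) (fun _ => p) (fun _ => b) (by simpa using hs)
    (by simpa using hb) (by simp)
  simpa using this

/-- A sub-segment of a segment. -/
lemma inSeg_mono {p b p' b' t : List ℕ} (h : inSeg p' b' t) (h1 : p <:+ p') (h2 : b' <:+ b) :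
    inSeg p b t := by
  obtain ⟨a1, a2, a3⟩ := h
  refine ⟨h1.trans a1, ?_, a3.trans h2⟩
  rintro rfl
  exact a2 (suffix_antisymm h1 a1)

/-! ### Downsets -/

/-- A set of nodes closed under suffixes and containing the virtual root. -/
structure Down (R : Set (List ℕ)) : Prop where
  nil : [] ∈ R
  suf : ∀ {a b : List ℕ}, a <:+ b → b ∈ R → a ∈ R

open Classical in
/-- The largest suffix lying in `R`. -/
noncomputable def pr (R : Set (List ℕ)) : List ℕ → List ℕ
  | [] => []
  | c :: s => if (c :: s) ∈ R then c :: s else pr R s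

open Classical in
/-- The smallest suffix not lying in `R`. -/
noncomputable def ex (R : Set (List ℕ)) : List ℕ → List ℕ
  | [] => []
  | c :: s => if s ∈ R then c :: s else ex R s

lemma pr_of_mem {R : Set (List ℕ)} {t : List ℕ} (h : t ∈ R) : pr R t = t := by
  cases t with
  | nil => rfl
  | cons c s => simp [pr, h]

lemma pr_mem {R : Set (List ℕ)} (hR : Down R) (t : List ℕ) : pr R t ∈ R := by
  induction t with
  | nil => exact hR.nil
  | cons c s ih =>
    unfold pr
    split_ifs with h
    · exact h
    · exact ih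

lemma pr_suffix (R : Set (List ℕ)) (t : List ℕ) : pr R t <:+ t := by
  induction t with
  | nil => exact List.suffix_refl _
  | cons c s ih =>
    unfold pr
    split_ifs with h
    · exact List.suffix_refl _
    · exact ih.trans (List.suffix_cons c s)

lemma suffix_pr {R : Set (List ℕ)} {r t : List ℕ} (hr : r ∈ R) (h : r <:+ t) : r <:+ pr R t := by
  induction t with
  | nil => simpa [pr] using h
  | cons c s ih =>
    unfold pr
    split_ifs with h'
    · exact h
    · rcases List.suffix_cons_iff.1 h with rfl | h2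
      · exact absurd hr h'
      · exact ih h2

lemma ex_suffix (R : Set (List ℕ)) (t : List ℕ) : ex R t <:+ t := by
  induction t with
  | nil => exact List.suffix_refl _
  | cons c s ih =>
    unfold ex
    split_ifs with h
    · exact List.suffix_refl _
    · exact ih.trans (List.suffix_cons c s)

lemma ex_spec {R : Set (List ℕ)} (hR : Down R) {t : List ℕ} (h : t ∉ R) :
    ex R t ∉ R ∧ (ex R t).tail ∈ R ∧ pr R t = (ex R t).tail := by
  induction t with
  | nil => exact absurd hR.nil h
  | cons c s ih =>
    unfold ex pr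
    by_cases hs : s ∈ R
    · simp only [hs, if_true, h, if_false, List.tail_cons]
      exact ⟨not_false, trivial, pr_of_mem hs⟩
    · simp only [hs, if_false, h]
      exact ih hs

lemma ex_eq {R : Set (List ℕ)} (hR : Down R) {p t : List ℕ} (hp : p ∉ R) (h : p <:+ t) :
    ex R p = ex R t := by
  induction t with
  | nil =>
    rw [List.suffix_nil] at h
    rw [h]
  | cons c s ih =>
    rcases List.suffix_cons_iff.1 h with rfl | h2
    · rfl
    · have hs : s ∉ R := fun hs => hp (hR.suf h2 hs)
      rw [ih h2]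
      conv_rhs => unfold ex
      simp [hs]

lemma ex_fix {R : Set (List ℕ)} (hR : Down R) {c : List ℕ} (hc : c ∉ R) (ht : c.tail ∈ R) :
    ex R c = c := by
  cases c with
  | nil => exact absurd hR.nil hc
  | cons a s =>
    simp only [List.tail_cons] at ht
    simp [ex, ht]

end Vale.Agent.P069
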