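import Mathlib
import Vale.Agent.P069.Comb

namespace Vale.Agent.P069

open Classical in
/-- The direction chosen at an exit node `c` with threshold `θ`: `+1` when some proper ancestor
`r` of the parent `s` has `ξ r ≥ ξ s + θ` while everything strictly between stays above
`ξ s - θ`, and `-1` otherwise. -/
def Up (ξ : List ℕ → ℝ) (θ : ℝ) (s : List ℕ) : Prop :=
  ∃ r, r <:+ s ∧ r ≠ s ∧ ξ s + θ ≤ ξ r ∧
    ∀ r', r <:+ r' → r' ≠ r → r' <:+ s → r' ≠ s → ξ s - θ < ξ r'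

lemma scalar1 {u h θ : ℝ} (h1 : u * h ≤ 0) (h2 : |h| ≤ θ) : (u + h) ^ 2 ≤ u ^ 2 + 4 * θ ^ 2 := by
  have h3 : h ^ 2 ≤ θ ^ 2 := by
    rw [← sq_abs h]; exact pow_le_pow_left₀ (abs_nonneg _) h2 2
  nlinarith [sq_nonneg θ]

lemma scalar2 {u h θ : ℝ} (h1 : |u| ≤ θ) (h2 : |h| ≤ θ) : (u + h) ^ 2 ≤ 4 * θ ^ 2 := by
  have h3 : |u + h| ≤ 2 * θ := (abs_add_le _ _).trans (by linarith)
  have : (u + h) ^ 2 ≤ (2 * θ) ^ 2 := by
    rw [← sq_abs (u + h)]; exact pow_le_pow_left₀ (abs_nonneg _) h3 2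
  linarith [this, (by ring : (2 * θ) ^ 2 = 4 * θ ^ 2)]

/-- Replacement step at a crossing segment. -/
lemma crossing {ξ : List ℕ → ℝ} {θ h : ℝ} {p s : List ℕ} (hps : p <:+ s)
    (hh : |h| ≤ θ) (hup : Up ξ θ s → 0 ≤ h) (hdn : ¬ Up ξ θ s → h ≤ 0) :
    ∃ w, p <:+ w ∧ w <:+ s ∧ (ξ s + h - ξ p) ^ 2 ≤ (ξ w - ξ p) ^ 2 + 4 * θ ^ 2 := by
  have hθ : 0 ≤ θ := (abs_nonneg _).trans hh
  have hh' := abs_le.1 hh
  by_cases h1 : (ξ s - ξ p) * h ≤ 0
  · refine ⟨s, hps, List.suffix_refl _, ?_⟩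
    have := scalar1 h1 hh
    convert this using 2
    ring
  rw [not_le] at h1
  by_cases h2 : |ξ s - ξ p| ≤ θ
  · refine ⟨p, List.suffix_refl _, hps, ?_⟩
    have := scalar2 h2 hh
    have h3 : (ξ s + h - ξ p) ^ 2 = (ξ s - ξ p + h) ^ 2 := by ring
    rw [h3]; nlinarith [sq_nonneg (ξ p - ξ p)]
  rw [not_le] at h2
  by_cases hU : Up ξ θ s
  · have hh0 := hup hU
    have hu : 0 < ξ s - ξ p := by
      by_contra hcon
      rw [not_lt] at hcon
      nlinarith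
    rw [abs_of_pos hu] at h2
    obtain ⟨r, hr1, hr2, hr3, hr4⟩ := hU
    have hpr : p <:+ r ∧ p ≠ r := by
      have hne : p ≠ r := by
        rintro rfl
        linarith
      refine ⟨?_, hne⟩
      rcases suffix_comp hps hr1 with hc | hc
      · exact hc
      · exfalso
        have hne' : p ≠ s := by
          rintro rfl
          linarith
        have := hr4 p hc hne hps hne'
        linarith
    refine ⟨r, hpr.1, hr1, ?_⟩
    have h5 : (ξ s + h - ξ p) ^ 2 ≤ (ξ r - ξ p) ^ 2 := by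
      apply pow_le_pow_left₀ (by linarith)
      linarith [hh'.2]
    nlinarith [sq_nonneg θ]
  · have hh0 := hdn hU
    have hu : ξ s - ξ p < 0 := by
      by_contra hcon
      rw [not_lt] at hcon
      nlinarith
    rw [abs_of_neg hu] at h2
    have hpne : p ≠ s := by
      rintro rfl
      linarith
    unfold Up at hU
    push Not at hU
    obtain ⟨r', a1, a2, a3, a4, a5⟩ := hU p hps hpne (by linarith)
    refine ⟨r', a1, a3, ?_⟩
    have h5 : (ξ p - ξ s - h) ^ 2 ≤ (ξ p - ξ r') ^ 2 := by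
      apply pow_le_pow_left₀ (by linarith)
      linarith [hh'.1]
    have h6 : (ξ s + h - ξ p) ^ 2 = (ξ p - ξ s - h) ^ 2 := by ring
    have h7 : (ξ r' - ξ p) ^ 2 = (ξ p - ξ r') ^ 2 := by ring
    rw [h6, h7]
    nlinarith [sq_nonneg θ]

/-- The main estimate. -/
lemma key {R : Set (List ℕ)} (hR : Down R) {ξ ζ : List ℕ → ℝ} (hξ : V2 ξ 1) (hζ : V2 ζ 1)
    (hζR : ∀ t ∈ R, ζ t = 0) {β : ℝ} (hβ : 0 ≤ β) (Θ : List ℕ → ℝ) (T : List ℕ → List ℕ)
    (hΘ : ∀ c t, c <:+ t → good t → |ζ t| ≤ Θ c)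
    (hT : ∀ c, good c → good (T c) ∧ c <:+ T c ∧ Θ c ≤ 2 * |ζ (T c)|)
    (h : List ℕ → ℝ) (hhR : ∀ t ∈ R, h t = 0)
    (hhle : ∀ t, good t → |h t| ≤ β * |ζ t|)
    (hup : ∀ t, good t → t ∉ R → Up ξ (β * Θ (ex R t)) (pr R t) → 0 ≤ h t)
    (hdn : ∀ t, good t → t ∉ R → ¬ Up ξ (β * Θ (ex R t)) (pr R t) → h t ≤ 0)
    (hlip : ∀ p b, p <:+ b → good b → p ∉ R → |h b - h p| ≤ β * |ζ b - ζ p|) :
    V2 (fun t => ξ (pr R t) + h t) (1 + 17 * β ^ 2) := by
  classical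
  intro F hF
  -- the replacement point
  have hW : ∀ q : List ℕ × List ℕ, ∃ w, q ∈ F → q.1 <:+ w ∧ w <:+ q.2 ∧
      ((ξ (pr R q.2) + h q.2) - (ξ (pr R q.1) + h q.1)) ^ 2 ≤ (ξ w - ξ q.1) ^ 2 +
        β ^ 2 * (if q.1 ∈ R then 0 else (ζ q.2 - ζ q.1) ^ 2) +
        16 * β ^ 2 * (if q.1 ∈ R ∧ q.2 ∉ R then (ζ (T (ex R q.2))) ^ 2 else 0) := by
    intro q
    by_cases hq : q ∈ F
    swap
    · exact ⟨[], fun h => absurd h hq⟩
    obtain ⟨hq1, hq2, hq3⟩ := hF.1 q hq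
    by_cases hbR : q.2 ∈ R
    · have hpR : q.1 ∈ R := hR.suf hq1 hbR
      refine ⟨q.2, fun _ => ⟨hq1, List.suffix_refl _, ?_⟩⟩
      simp [hpR, hbR, pr_of_mem, hhR]
    by_cases hpR : q.1 ∈ R
    · -- crossing
      obtain ⟨e1, e2, e3⟩ := ex_spec hR hbR
      have hgc : good (ex R q.2) := good_suffix (ex_suffix R q.2) hq3
      obtain ⟨t1, t2, t3⟩ := hT _ hgc
      have hhθ : |h q.2| ≤ β * Θ (ex R q.2) :=
        (hhle _ hq3).trans (mul_le_mul_of_nonneg_left (hΘ _ _ (ex_suffix R q.2) hq3) hβ)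
      obtain ⟨w, w1, w2, w3⟩ := crossing (ξ := ξ) (suffix_pr hpR hq1) hhθ
        (hup q.2 hq3 hbR) (hdn q.2 hq3 hbR)
      refine ⟨w, fun _ => ⟨w1, w2.trans (pr_suffix R q.2), ?_⟩⟩
      simp only [hpR, hbR, if_true, not_false_eq_true, and_self, pr_of_mem hpR, hhR _ hpR,
        mul_zero, add_zero]
      refine w3.trans ?_
      have hΘ0 : 0 ≤ Θ (ex R q.2) := (abs_nonneg _).trans (hΘ _ _ (ex_suffix R q.2) hq3)
      have h8 : (Θ (ex R q.2)) ^ 2 ≤ 4 * (ζ (T (ex R q.2))) ^ 2 := by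
        have := pow_le_pow_left₀ hΘ0 t3 2
        rw [mul_pow, sq_abs] at this
        linarith
      nlinarith [sq_nonneg β]
    · -- both outside
      refine ⟨q.1, fun _ => ⟨List.suffix_refl _, hq1, ?_⟩⟩
      have hpi : pr R q.2 = pr R q.1 := by
        rw [(ex_spec hR hbR).2.2, (ex_spec hR hpR).2.2, ex_eq hR hpR hq1]
      simp only [hpR, if_false, false_and, mul_zero, add_zero, sub_self, hpi]
      have h9 := hlip _ _ hq1 hq3 hpR
      have h10 : (h q.2 - h q.1) ^ 2 ≤ β ^ 2 * (ζ q.2 - ζ q.1) ^ 2 := by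
        have := pow_le_pow_left₀ (abs_nonneg _) h9 2
        rw [mul_pow, sq_abs, sq_abs] at this
        exact this
      nlinarith
  choose W hWs using hW
  have hA : ∑ q ∈ F, (ξ (W q) - ξ q.1) ^ 2 ≤ 1 := by
    refine hξ.sum_le F (fun q => q.1) W (fun q hq => (hWs q hq).1)
      (fun q hq => good_suffix (hWs q hq).2.1 (hF.1 q hq).2.2) ?_
    intro q hq q' hq' hne t ht ht'
    exact hF.2 q hq q' hq' hne t (inSeg_mono ht (List.suffix_refl _) (hWs q hq).2.1)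
      (inSeg_mono ht' (List.suffix_refl _) (hWs q' hq').2.1)
  have hB : ∑ q ∈ F, (if q.1 ∈ R then 0 else (ζ q.2 - ζ q.1) ^ 2) ≤ 1 := by
    have : ∑ q ∈ F, (if q.1 ∈ R then 0 else (ζ q.2 - ζ q.1) ^ 2)
        = ∑ q ∈ F.filter (fun q => q.1 ∉ R), (ζ q.2 - ζ q.1) ^ 2 := by
      rw [Finset.sum_filter]
      refine Finset.sum_congr rfl fun q _ => ?_
      by_cases hq : q.1 ∈ R <;> simp [hq]
    rw [this]
    refine hζ.sum_le (F.filter (fun q => q.1 ∉ R)) (fun q => q.1) (fun q => q.2)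
      (fun q hq => (hF.1 q (Finset.mem_filter.1 hq).1).1)
      (fun q hq => (hF.1 q (Finset.mem_filter.1 hq).1).2.2) ?_
    intro q hq q' hq' hne
    exact hF.2 q (Finset.mem_filter.1 hq).1 q' (Finset.mem_filter.1 hq').1 hne
  have hC : ∑ q ∈ F, (if q.1 ∈ R ∧ q.2 ∉ R then (ζ (T (ex R q.2))) ^ 2 else 0) ≤ 1 := by
    have : ∑ q ∈ F, (if q.1 ∈ R ∧ q.2 ∉ R then (ζ (T (ex R q.2))) ^ 2 else 0)
        = ∑ q ∈ F.filter (fun q => q.1 ∈ R ∧ q.2 ∉ R),
          (ζ (T (ex R q.2)) - ζ (ex R q.2).tail) ^ 2 := by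
      rw [Finset.sum_filter]
      refine Finset.sum_congr rfl fun q _ => ?_
      by_cases hq : q.1 ∈ R ∧ q.2 ∉ R
      · simp only [hq, not_false_eq_true, and_self, if_true]
        rw [hζR _ (ex_spec hR hq.2).2.1, sub_zero]
      · simp [hq]
    rw [this]
    refine hζ.sum_le (F.filter (fun q => q.1 ∈ R ∧ q.2 ∉ R)) (fun q => (ex R q.2).tail)
      (fun q => T (ex R q.2)) ?_ ?_ ?_
    · intro q hq
      obtain ⟨hq, hq'⟩ := Finset.mem_filter.1 hq
      have hgc : good (ex R q.2) := good_suffix (ex_suffix R q.2) (hF.1 q hq).2.2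
      exact (List.tail_suffix _).trans (hT _ hgc).2.1
    · intro q hq
      obtain ⟨hq, hq'⟩ := Finset.mem_filter.1 hq
      have hgc : good (ex R q.2) := good_suffix (ex_suffix R q.2) (hF.1 q hq).2.2
      exact (hT _ hgc).1
    · -- a node of the segment determines the exit node
      have hdet : ∀ q ∈ F.filter (fun q => q.1 ∈ R ∧ q.2 ∉ R), ∀ t,
          inSeg (ex R q.2).tail (T (ex R q.2)) t → ex R t = ex R q.2 := by
        intro q hq t ht
        obtain ⟨hq, hq'⟩ := Finset.mem_filter.1 hq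
        have hgc : good (ex R q.2) := good_suffix (ex_suffix R q.2) (hF.1 q hq).2.2
        obtain ⟨e1, e2, e3⟩ := ex_spec hR hq'.2
        have hct : ex R q.2 <:+ t := by
          rcases suffix_comp (hT _ hgc).2.1 ht.2.2 with hc | hc
          · exact hc
          · have hlen : t.length ≤ (ex R q.2).length := hc.length_le
            have hlen2 : (ex R q.2).tail.length < t.length := by
              rcases lt_or_eq_of_le ht.1.length_le with hl | hl
              · exact hl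
              · exact absurd (ht.1.eq_of_length hl).symm ht.2.1
            rw [List.length_tail] at hlen2
            have : t.length = (ex R q.2).length := by omega
            rw [hc.eq_of_length this]
        rw [← ex_eq hR e1 hct, ex_fix hR e1 e2]
      have hin : ∀ q ∈ F.filter (fun q => q.1 ∈ R ∧ q.2 ∉ R), inSeg q.1 q.2 (ex R q.2) := by
        intro q hq
        obtain ⟨hq, hq'⟩ := Finset.mem_filter.1 hq
        obtain ⟨e1, e2, e3⟩ := ex_spec hR hq'.2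
        refine ⟨?_, ?_, ex_suffix R q.2⟩
        · exact (suffix_pr hq'.1 (hF.1 q hq).1).trans (by rw [e3]; exact List.tail_suffix _)
        · intro he
          exact e1 (he ▸ hq'.1)
      intro q hq q' hq' hne t ht ht'
      have e : ex R q.2 = ex R q'.2 := (hdet q hq t ht).symm.trans (hdet q' hq' t ht')
      have i1 := hin q hq
      have i2 := hin q' hq'
      rw [← e] at i2
      exact hF.2 q (Finset.mem_filter.1 hq).1 q' (Finset.mem_filter.1 hq').1 hne _ i1 i2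
  have hfin : ∑ q ∈ F, ((ξ (pr R q.2) + h q.2) - (ξ (pr R q.1) + h q.1)) ^ 2 ≤
      ∑ q ∈ F, ((ξ (W q) - ξ q.1) ^ 2 +
        β ^ 2 * (if q.1 ∈ R then 0 else (ζ q.2 - ζ q.1) ^ 2) +
        16 * β ^ 2 * (if q.1 ∈ R ∧ q.2 ∉ R then (ζ (T (ex R q.2))) ^ 2 else 0)) :=
    Finset.sum_le_sum fun q hq => (hWs q hq).2.2
  refine hfin.trans ?_
  rw [Finset.sum_add_distrib, Finset.sum_add_distrib, ← Finset.mul_sum, ← Finset.mul_sum]
  nlinarith [sq_nonneg β]

end Vale.Agent.P069
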