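import Mathlib
import Vale.Agent.P069.Key

namespace Vale.Agent.P069

open Classical in
lemma split {R : Set (List ℕ)} (hR : Down R) {ξ ζ : List ℕ → ℝ} (hξ : V2 ξ 1) (hζ : V2 ζ 1)
    (hζR : ∀ t ∈ R, ζ t = 0) {β : ℝ} (hβ : 0 ≤ β) :
    ∃ ζ1 : List ℕ → ℝ, (∀ t ∈ R, ζ1 t = 0) ∧
      V2 (fun t => ξ (pr R t) + β * ζ1 t) (1 + 17 * β ^ 2) ∧
      V2 (fun t => ξ (pr R t) + -(β * (ζ t - ζ1 t))) (1 + 17 * β ^ 2) := by
  have hbd : ∀ t, good t → |ζ t| ≤ 1 := by
    intro t ht
    have := hζ.sq_le (List.nil_suffix (l := t)) ht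
    rw [hζR [] hR.nil, sub_zero] at this
    exact (sq_le_one_iff_abs_le_one _).1 this
  have hΘex : ∀ c, ∃ θ : ℝ, (∀ t, c <:+ t → good t → |ζ t| ≤ θ) ∧
      ∃ T, good c → good T ∧ c <:+ T ∧ θ ≤ 2 * |ζ T| := by
    intro c
    by_cases hc : good c
    swap
    · exact ⟨1, fun t _ ht => hbd t ht, [], fun h => absurd h hc⟩
    set S : Set ℝ := {x | ∃ t, c <:+ t ∧ good t ∧ x = |ζ t|} with hS
    have hne : S.Nonempty := ⟨|ζ c|, c, List.suffix_refl _, hc, rfl⟩
    have hbdd : BddAbove S := by
      refine ⟨1, ?_⟩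
      rintro x ⟨t, _, ht, rfl⟩
      exact hbd t ht
    refine ⟨sSup S, fun t h1 h2 => le_csSup hbdd ⟨t, h1, h2, rfl⟩, ?_⟩
    rcases le_or_gt (sSup S) 0 with h0 | h0
    · refine ⟨c, fun _ => ⟨hc, List.suffix_refl _, h0.trans (by positivity)⟩⟩
    · obtain ⟨x, ⟨t, h1, h2, rfl⟩, h3⟩ := exists_lt_of_lt_csSup hne (half_lt_self h0)
      exact ⟨t, fun _ => ⟨h2, h1, by linarith⟩⟩
  choose Θ hΘ T hT using hΘex
  set D : List ℕ → Prop := fun t => Up ξ (β * Θ (ex R t)) (pr R t) with hD
  have hDeq : ∀ p b, p <:+ b → p ∉ R → (D p ↔ D b) := by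
    intro p b hpb hp
    have hb : b ∉ R := fun hb => hp (hR.suf hpb hb)
    have hpi : pr R b = pr R p := by
      rw [(ex_spec hR hb).2.2, (ex_spec hR hp).2.2, ex_eq hR hp hpb]
    simp only [hD, hpi, ex_eq hR hp hpb]
  refine ⟨fun t => if D t then max (ζ t) 0 else min (ζ t) 0, ?_, ?_, ?_⟩
  · intro t ht
    simp [hζR t ht]
  · refine key hR hξ hζ hζR hβ Θ T hΘ hT _ ?_ ?_ ?_ ?_ ?_
    · intro t ht
      simp [hζR t ht]
    · intro t _
      rw [abs_mul, abs_of_nonneg hβ]
      refine mul_le_mul_of_nonneg_left ?_ hβ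
      beta_reduce
      split_ifs
      · rw [abs_of_nonneg (le_max_right _ _)]
        exact max_le (le_abs_self _) (abs_nonneg _)
      · rw [abs_of_nonpos (min_le_right _ _)]
        rcases le_total (ζ t) 0 with h | h
        · rw [min_eq_left h]; exact neg_le_abs _
        · rw [min_eq_right h]; simp
    · intro t _ _ hu
      have : D t := hu
      simp only [this, if_true]
      exact mul_nonneg hβ (le_max_right _ _)
    · intro t _ _ hu
      have : ¬ D t := hu
      simp only [this, if_false]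
      exact mul_nonpos_of_nonneg_of_nonpos hβ (min_le_right _ _)
    · intro p b hpb _ hp
      rw [← mul_sub, abs_mul, abs_of_nonneg hβ]
      refine mul_le_mul_of_nonneg_left ?_ hβ
      by_cases hDb : D b
      · have hDp : D p := (hDeq p b hpb hp).2 hDb
        simp only [hDb, hDp, if_true]
        exact abs_max_sub_max_le_abs _ _ _
      · have hDp : ¬ D p := fun h => hDb ((hDeq p b hpb hp).1 h)
        simp only [hDb, hDp, if_false]
        have := abs_min_sub_min_le_max (ζ b) 0 (ζ p) 0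
        simpa using this
  · refine key hR hξ hζ hζR hβ Θ T hΘ hT _ ?_ ?_ ?_ ?_ ?_
    · intro t ht
      simp [hζR t ht]
    · intro t _
      rw [abs_neg, abs_mul, abs_of_nonneg hβ]
      refine mul_le_mul_of_nonneg_left ?_ hβ
      beta_reduce
      split_ifs
      · rcases le_total (ζ t) 0 with h | h
        · rw [max_eq_right h]; simp
        · rw [max_eq_left h]; simp
      · rcases le_total (ζ t) 0 with h | h
        · rw [min_eq_left h]; simp
        · rw [min_eq_right h]; simp
    · intro t _ _ hu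
      have : D t := hu
      simp only [this, if_true]
      have h1 : ζ t - max (ζ t) 0 ≤ 0 := by linarith [le_max_left (ζ t) 0]
      have := mul_nonpos_of_nonneg_of_nonpos hβ h1
      linarith
    · intro t _ _ hu
      have : ¬ D t := hu
      simp only [this, if_false]
      have h1 : 0 ≤ ζ t - min (ζ t) 0 := by linarith [min_le_left (ζ t) 0]
      have := mul_nonneg hβ h1
      linarith
    · intro p b hpb _ hp
      rw [← neg_sub', ← mul_sub, abs_neg, abs_mul, abs_of_nonneg hβ]
      refine mul_le_mul_of_nonneg_left ?_ hβ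
      have e1 : ∀ x : ℝ, x - max x 0 = min x 0 := by
        intro x
        rcases le_total x 0 with h | h
        · rw [max_eq_right h, min_eq_left h]; ring
        · rw [max_eq_left h, min_eq_right h]; ring
      have e2 : ∀ x : ℝ, x - min x 0 = max x 0 := by
        intro x
        rcases le_total x 0 with h | h
        · rw [max_eq_right h, min_eq_left h]; ring
        · rw [max_eq_left h, min_eq_right h]; ring
      by_cases hDb : D b
      · have hDp : D p := (hDeq p b hpb hp).2 hDb
        simp only [hDb, hDp, if_true, e1]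
        have := abs_min_sub_min_le_max (ζ b) 0 (ζ p) 0
        simpa using this
      · have hDp : ¬ D p := fun h => hDb ((hDeq p b hpb hp).1 h)
        simp only [hDb, hDp, if_false, e2]
        exact abs_max_sub_max_le_abs _ _ _

open Classical in
lemma V2_sub_pr {R : Set (List ℕ)} (hR : Down R) {u : List ℕ → ℝ} {M : ℝ} (hu : V2 u M) :
    V2 (fun t => u t - u (pr R t)) M := by
  intro F hF
  have hP : ∀ q ∈ F, ∃ P, q.1 <:+ P ∧ P <:+ q.2 ∧
      ((u q.2 - u (pr R q.2)) - (u q.1 - u (pr R q.1))) ^ 2 = (u q.2 - u P) ^ 2 := by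
    intro q hq
    obtain ⟨hq1, hq2, hq3⟩ := hF.1 q hq
    by_cases hb : q.2 ∈ R
    · have hp : q.1 ∈ R := hR.suf hq1 hb
      exact ⟨q.2, hq1, List.suffix_refl _, by simp [pr_of_mem, hb, hp]⟩
    · by_cases hp : q.1 ∈ R
      · exact ⟨pr R q.2, suffix_pr hp hq1, pr_suffix R _, by simp [pr_of_mem hp]⟩
      · refine ⟨q.1, List.suffix_refl _, hq1, ?_⟩
        have hpi : pr R q.2 = pr R q.1 := by
          rw [(ex_spec hR hb).2.2, (ex_spec hR hp).2.2, ex_eq hR hp hq1]
        rw [hpi]; ring
  choose! P hP using hP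
  have := hu.sum_le F P (fun q => q.2) (fun q hq => (hP q hq).2.1)
    (fun q hq => (hF.1 q hq).2.2) ?_
  · rw [← Finset.sum_congr rfl fun q hq => (hP q hq).2.2] at this
    exact this
  · intro q hq q' hq' hne t ht ht'
    exact hF.2 q hq q' hq' hne t (inSeg_mono ht (hP q hq).1 (List.suffix_refl _))
      (inSeg_mono ht' (hP q' hq').1 (List.suffix_refl _))

open Classical in
lemma V2_pr {R : Set (List ℕ)} (hR : Down R) {u : List ℕ → ℝ} {M : ℝ} (hu : V2 u M) :
    V2 (fun t => u (pr R t)) M := by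
  intro F hF
  have hB : ∀ q ∈ F, ∃ B, q.1 <:+ B ∧ B <:+ q.2 ∧
      (u (pr R q.2) - u (pr R q.1)) ^ 2 = (u B - u q.1) ^ 2 := by
    intro q hq
    obtain ⟨hq1, hq2, hq3⟩ := hF.1 q hq
    by_cases hp : q.1 ∈ R
    · exact ⟨pr R q.2, suffix_pr hp hq1, pr_suffix R _, by simp [pr_of_mem hp]⟩
    · have hb : q.2 ∉ R := fun hb => hp (hR.suf hq1 hb)
      refine ⟨q.1, List.suffix_refl _, hq1, ?_⟩
      have hpi : pr R q.2 = pr R q.1 := by
        rw [(ex_spec hR hb).2.2, (ex_spec hR hp).2.2, ex_eq hR hp hq1]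
      rw [hpi]; ring
  choose! B hB using hB
  have := hu.sum_le F (fun q => q.1) B (fun q hq => (hB q hq).1)
    (fun q hq => good_suffix (hB q hq).2.1 (hF.1 q hq).2.2) ?_
  · rw [← Finset.sum_congr rfl fun q hq => (hB q hq).2.2] at this
    exact this
  · intro q hq q' hq' hne t ht ht'
    exact hF.2 q hq q' hq' hne t (inSeg_mono ht (List.suffix_refl _) (hB q hq).2.1)
      (inSeg_mono ht' (List.suffix_refl _) (hB q' hq').2.1)

open Classical in
/-- The unit vectors `e_r`. -/
noncomputable def ev (r : List ℕ) : List ℕ → ℝ := fun t => if r <:+ t then 1 else 0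

open Classical in
lemma V2_ev (r : List ℕ) : V2 (ev r) 1 := by
  intro F hF
  have h0 : ∀ q ∈ F, (ev r q.2 - ev r q.1) ^ 2 = if inSeg q.1 q.2 r then 1 else 0 := by
    intro q hq
    obtain ⟨hq1, hq2, hq3⟩ := hF.1 q hq
    unfold ev
    by_cases h1 : r <:+ q.1
    · have h2 : r <:+ q.2 := h1.trans hq1
      have h3 : ¬ inSeg q.1 q.2 r := fun h => h.2.1 (suffix_antisymm h1 h.1)
      simp [h1, h2, h3]
    · by_cases h2 : r <:+ q.2
      · have h3 : inSeg q.1 q.2 r := by
          refine ⟨?_, ?_, h2⟩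
          · rcases suffix_comp hq1 h2 with h | h
            · exact h
            · exact absurd h h1
          · rintro rfl
            exact h1 (List.suffix_refl _)
        simp [h1, h2, h3]
      · have h3 : ¬ inSeg q.1 q.2 r := fun h => h2 h.2.2
        simp [h1, h2, h3]
  rw [Finset.sum_congr rfl h0]
  by_cases hex : ∃ q ∈ F, inSeg q.1 q.2 r
  · obtain ⟨q, hq, hqr⟩ := hex
    rw [Finset.sum_eq_single q]
    · simp [hqr]
    · intro q' hq' hne
      have := hF.2 q hq q' hq' (Ne.symm hne) r hqr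
      simp [this]
    · intro h; exact absurd hq h
  · push Not at hex
    rw [Finset.sum_eq_zero]
    · norm_num
    · intro q hq
      simp [hex q hq]

/-- Cumulative sums along a branch. -/
def cum (a : List ℕ → ℝ) : List ℕ → ℝ
  | [] => 0
  | c :: s => a (c :: s) + cum a s

open Classical in
/-- The nodes of a segment. -/
noncomputable def segF (p b : List ℕ) : Finset (List ℕ) :=
  b.tails.toFinset.filter (fun t => inSeg p b t)

lemma mem_segF {p b t : List ℕ} : t ∈ segF p b ↔ inSeg p b t := by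
  classical
  unfold segF
  rw [Finset.mem_filter, List.mem_toFinset, List.mem_tails]
  exact ⟨fun h => h.2, fun h => ⟨h.2.2, h⟩⟩

lemma segF_self (p : List ℕ) : segF p p = ∅ := by
  ext t
  rw [mem_segF]
  simp only [Finset.notMem_empty, iff_false]
  rintro ⟨h1, h2, h3⟩
  exact h2 (suffix_antisymm h3 h1)

lemma segF_cons {p s : List ℕ} {c : ℕ} (h : p <:+ s) :
    segF p (c :: s) = insert (c :: s) (segF p s) := by
  ext t
  rw [mem_segF, Finset.mem_insert, mem_segF]
  constructor
  · rintro ⟨h1, h2, h3⟩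
    rcases List.suffix_cons_iff.1 h3 with rfl | h4
    · exact Or.inl rfl
    · exact Or.inr ⟨h1, h2, h4⟩
  · rintro (rfl | ⟨h1, h2, h3⟩)
    · refine ⟨h.trans (List.suffix_cons _ _), ?_, List.suffix_refl _⟩
      rintro rfl
      have := h.length_le
      simp at this
    · exact ⟨h1, h2, h3.trans (List.suffix_cons _ _)⟩

lemma notMem_segF {p s : List ℕ} {c : ℕ} : (c :: s) ∉ segF p s := by
  rw [mem_segF]
  rintro ⟨_, _, h3⟩
  have := h3.length_le
  simp at this

lemma cum_sub (a : List ℕ → ℝ) {p b : List ℕ} (h : p <:+ b) :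
    cum a b - cum a p = ∑ t ∈ segF p b, a t := by
  induction b with
  | nil =>
    rw [List.suffix_nil] at h
    subst h
    rw [segF_self]; simp
  | cons c s ih =>
    rcases List.suffix_cons_iff.1 h with rfl | h2
    · rw [segF_self]; simp
    · rw [segF_cons h2, Finset.sum_insert notMem_segF, ← ih h2]
      simp only [cum]; ring

lemma card_segF {p b : List ℕ} (h : p <:+ b) : (segF p b).card ≤ b.length := by
  induction b with
  | nil =>
    rw [List.suffix_nil] at h
    subst h
    rw [segF_self]; simp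
  | cons c s ih =>
    rcases List.suffix_cons_iff.1 h with rfl | h2
    · rw [segF_self]; simp
    · rw [segF_cons h2, Finset.card_insert_of_notMem notMem_segF]
      have := ih h2
      simp only [List.length_cons]; omega

lemma V2_cum (N : ℕ) {a : List ℕ → ℝ} {K : ℝ} (hK : ∀ A : Finset (List ℕ), ∑ t ∈ A, a t ^ 2 ≤ K) :
    V2 (fun t => if lab t ≤ N then cum a t else 0) ((N + 1) * K) := by
  classical
  intro F hF
  have h0 : ∀ q ∈ F, ((if lab q.2 ≤ N then cum a q.2 else 0) -
      (if lab q.1 ≤ N then cum a q.1 else 0)) ^ 2 ≤ ((N : ℝ) + 1) * ∑ t ∈ segF q.1 q.2, a t ^ 2 := by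
    intro q hq
    obtain ⟨hq1, hq2, hq3⟩ := hF.1 q hq
    have hnn : 0 ≤ ∑ t ∈ segF q.1 q.2, a t ^ 2 := Finset.sum_nonneg fun _ _ => sq_nonneg _
    by_cases hl : lab q.2 ≤ N
    · have hl1 : lab q.1 ≤ N := by
        by_cases hp : q.1 = []
        · rw [hp]; simp [lab]
        · rw [lab_suffix hq1 hp]; exact hl
      simp only [hl, hl1, if_true]
      rw [cum_sub a hq1]
      refine sq_sum_le_card_mul_sum_sq.trans ?_
      refine mul_le_mul_of_nonneg_right ?_ hnn
      have h1 : (segF q.1 q.2).card ≤ N + 1 := by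
        refine (card_segF hq1).trans ?_
        unfold good at hq3
        omega
      exact_mod_cast h1
    · have hz : (if lab q.1 ≤ N then cum a q.1 else 0) = 0 := by
        by_cases hp : q.1 = []
        · rw [hp]; simp [lab, cum]
        · rw [lab_suffix hq1 hp]; simp [hl]
      rw [hz]
      simp only [hl, if_false, sub_zero]
      have : (0:ℝ) ≤ (N : ℝ) + 1 := by positivity
      nlinarith [mul_nonneg this hnn]
  refine (Finset.sum_le_sum h0).trans ?_
  rw [← Finset.mul_sum]
  refine mul_le_mul_of_nonneg_left ?_ (by positivity)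
  rw [← Finset.sum_biUnion]
  · exact hK _
  · intro q hq q' hq' hne
    rw [Function.onFun, Finset.disjoint_left]
    intro t ht ht'
    rw [mem_segF] at ht ht'
    exact hF.2 q hq q' hq' hne t ht ht'

/-- Coordinates of a function on the nodes. -/
noncomputable def crd (η : List ℕ → ℝ) : List ℕ → ℝ := by
  classical
  exact fun t => if good t then η t - η t.tail else 0

lemma crd_sum {η : List ℕ → ℝ} {M : ℝ} (h : V2 η M) (A : Finset (List ℕ)) :
    ∑ t ∈ A, crd η t ^ 2 ≤ M := by
  classical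
  have h1 : ∑ t ∈ A, crd η t ^ 2 = ∑ t ∈ A.filter good, (η t - η t.tail) ^ 2 := by
    rw [Finset.sum_filter]
    refine Finset.sum_congr rfl fun t _ => ?_
    unfold crd
    by_cases ht : good t <;> simp [ht]
  rw [h1]
  refine h.sum_le (A.filter good) (fun t => t.tail) (fun t => t) (fun t _ => List.tail_suffix t)
    (fun t ht => (Finset.mem_filter.1 ht).2) ?_
  have hone : ∀ s t : List ℕ, inSeg s.tail s t → t = s := by
    rintro s t ⟨h1, h2, h3⟩
    have l1 : s.tail.length < t.length := by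
      rcases lt_or_eq_of_le h1.length_le with hl | hl
      · exact hl
      · exact absurd (h1.eq_of_length hl).symm h2
    rw [List.length_tail] at l1
    have l2 := h3.length_le
    exact h3.eq_of_length (by omega)
  intro s _ s' _ hne t ht ht'
  exact hne ((hone s t ht).symm.trans (hone s' t ht'))

lemma cum_crd {η : List ℕ → ℝ} (h0 : η [] = 0) {t : List ℕ} (ht : good t) :
    cum (crd η) t = η t := by
  classical
  induction t with
  | nil => simp [cum, h0]
  | cons c s ih =>
    unfold cum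
    rw [ih (good_tail ht)]
    unfold crd
    simp [ht]

/-- Splitting off finitely many trees. -/
lemma V2_tail {η : List ℕ → ℝ} {M : ℝ} (h : V2 η M) (h0 : η [] = 0) {N : ℕ}
    {F1 : Finset (List ℕ × List ℕ)} (hF1 : IsFam F1) (hN : ∀ q ∈ F1, lab q.2 ≤ N) :
    V2 (fun t => if lab t ≤ N then 0 else η t) (M - ∑ q ∈ F1, (η q.2 - η q.1) ^ 2) := by
  classical
  intro F2 hF2
  have h1 : ∑ q ∈ F2, ((if lab q.2 ≤ N then 0 else η q.2) - (if lab q.1 ≤ N then 0 else η q.1)) ^ 2
      = ∑ q ∈ F2.filter (fun q => ¬ lab q.2 ≤ N), (η q.2 - η q.1) ^ 2 := by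
    rw [Finset.sum_filter]
    refine Finset.sum_congr rfl fun q hq => ?_
    obtain ⟨hq1, hq2, hq3⟩ := hF2.1 q hq
    by_cases hp : q.1 = []
    · have hl0 : lab q.1 ≤ N := by rw [hp]; simp [lab]
      by_cases hl : lab q.2 ≤ N
      · simp [hl, hl0]
      · simp [hp, hl, h0]
    · rw [lab_suffix hq1 hp]
      by_cases hl : lab q.2 ≤ N
      · simp [hl]
      · simp [hl]
  rw [h1]
  set F2' := F2.filter (fun q => ¬ lab q.2 ≤ N) with hF2'
  have hcross : ∀ q ∈ F1, ∀ q' ∈ F2', ∀ t, inSeg q.1 q.2 t → ¬ inSeg q'.1 q'.2 t := by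
    intro q hq q' hq' t ht ht'
    rw [hF2', Finset.mem_filter] at hq'
    have htn : t ≠ [] := by
      rintro rfl
      have := List.suffix_nil.1 ht.1
      exact ht.2.1 this.symm
    have e1 := lab_suffix ht.2.2 htn
    have e2 := lab_suffix ht'.2.2 htn
    have := hN q hq
    have := hq'.2
    omega
  have hdisj : Disjoint F1 F2' := by
    rw [Finset.disjoint_left]
    intro q hq hq'
    obtain ⟨hq1, hq2, hq3⟩ := hF1.1 q hq
    exact hcross q hq q hq' q.2 (inSeg_self hq1 hq2) (inSeg_self hq1 hq2)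
  have hfam : IsFam (F1 ∪ F2') := by
    refine ⟨?_, ?_⟩
    · intro q hq
      rcases Finset.mem_union.1 hq with hq | hq
      · exact hF1.1 q hq
      · exact hF2.1 q (Finset.mem_filter.1 hq).1
    · intro q hq q' hq' hne t ht
      rcases Finset.mem_union.1 hq with hq | hq <;> rcases Finset.mem_union.1 hq' with hq' | hq'
      · exact hF1.2 q hq q' hq' hne t ht
      · exact hcross q hq q' hq' t ht
      · exact fun ht' => hcross q' hq' q hq t ht' ht
      · exact hF2.2 q (Finset.mem_filter.1 hq).1 q' (Finset.mem_filter.1 hq').1 hne t ht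
  have := h _ hfam
  rw [Finset.sum_union hdisj] at this
  linarith

/-- The square-sum estimate for functions supported on different trees. -/
lemma V2_comb {η η' : List ℕ → ℝ} {M M' : ℝ} (h : V2 η M) (h' : V2 η' M') (h0 : η [] = 0)
    (h0' : η' [] = 0) (N : ℕ) (a b : ℝ) :
    V2 (fun t => if lab t ≤ N then a * η t else b * η' t) (a ^ 2 * M + b ^ 2 * M') := by
  classical
  intro F hF
  have h1 : ∀ q ∈ F, ((if lab q.2 ≤ N then a * η q.2 else b * η' q.2) -
      (if lab q.1 ≤ N then a * η q.1 else b * η' q.1)) ^ 2 ≤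
      a ^ 2 * (η q.2 - η q.1) ^ 2 + b ^ 2 * (η' q.2 - η' q.1) ^ 2 := by
    intro q hq
    obtain ⟨hq1, hq2, hq3⟩ := hF.1 q hq
    have n1 := mul_nonneg (sq_nonneg a) (sq_nonneg (η q.2 - η q.1))
    have n2 := mul_nonneg (sq_nonneg b) (sq_nonneg (η' q.2 - η' q.1))
    have e1 : (a * η q.2 - a * η q.1) ^ 2 = a ^ 2 * (η q.2 - η q.1) ^ 2 := by ring
    have e2 : (b * η' q.2 - b * η' q.1) ^ 2 = b ^ 2 * (η' q.2 - η' q.1) ^ 2 := by ring
    by_cases hp : q.1 = []
    · by_cases hl : lab q.2 ≤ N
      · have hl1 : lab q.1 ≤ N := by rw [hp]; simp [lab]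
        simp only [hl, hl1, if_true]
        linarith
      · have hl1 : lab q.1 ≤ N := by rw [hp]; simp [lab]
        simp only [hl, hl1, if_true, if_false]
        have e3 : (b * η' q.2 - a * η q.1) ^ 2 = (b * η' q.2 - b * η' q.1) ^ 2 := by
          rw [hp, h0, h0']; ring
        linarith
    · rw [lab_suffix hq1 hp]
      by_cases hl : lab q.2 ≤ N
      · simp only [hl, if_true]; linarith
      · simp only [hl, if_false]; linarith
  refine (Finset.sum_le_sum h1).trans ?_
  rw [Finset.sum_add_distrib, ← Finset.mul_sum, ← Finset.mul_sum]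
  have m1 := mul_le_mul_of_nonneg_left (h F hF) (sq_nonneg a)
  have m2 := mul_le_mul_of_nonneg_left (h' F hF) (sq_nonneg b)
  linarith

end Vale.Agent.P069
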