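import Mathlib
import Vale.Agent.P069.Comb2

namespace Vale.Agent.P069

open scoped ENNReal

/-- Families of disjoint segments. -/
abbrev Fam := {F : Finset (List ℕ × List ℕ) // IsFam F}

/-- The Euclidean space attached to a family. -/
noncomputable abbrev Fib (F : Fam) := EuclideanSpace ℝ {q // q ∈ F.1}

/-- The big ambient space. -/
noncomputable abbrev Big := lp (fun F : Fam => Fib F) ∞

lemma sing_fam {t : List ℕ} (ht : good t) (hne : t ≠ []) : IsFam {([], t)} := by
  refine ⟨?_, ?_⟩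
  · intro q hq
    rw [Finset.mem_singleton] at hq
    subst hq
    exact ⟨List.nil_suffix, Ne.symm hne, ht⟩
  · intro q hq q' hq' hne
    rw [Finset.mem_singleton] at hq hq'
    exact absurd (hq.trans hq'.symm) hne

/-- Evaluation at a coordinate of a family. -/
noncomputable def evF (F : Fam) (q : {q // q ∈ F.1}) : Big →L[ℝ] ℝ :=
  LinearMap.mkContinuous
    { toFun := fun v => (v F) q
      map_add' := fun v w => by simp
      map_smul' := fun c v => by simp } 1 (by
    intro v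
    rw [one_mul]
    exact (PiLp.norm_apply_le (v F) q).trans (lp.norm_apply_le_norm ENNReal.top_ne_zero v F))

@[simp] lemma evF_apply (F : Fam) (q : {q // q ∈ F.1}) (v : Big) : evF F q v = (v F) q := rfl

lemma evF_norm_le (F : Fam) (q : {q // q ∈ F.1}) (v : Big) : |evF F q v| ≤ ‖v‖ :=
  (PiLp.norm_apply_le (v F) q).trans (lp.norm_apply_le_norm ENNReal.top_ne_zero v F)

open Classical in
/-- The value at a node. -/
noncomputable def val (t : List ℕ) : Big →L[ℝ] ℝ :=
  if h : good t ∧ t ≠ [] then evF ⟨{([], t)}, sing_fam h.1 h.2⟩ ⟨([], t), Finset.mem_singleton_self _⟩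
  else 0

/-- The predual space: functions on the nodes with finite square variation. -/
noncomputable def Zs : Submodule ℝ Big where
  carrier := {v | ∀ (F : Fam) (q : {q // q ∈ F.1}), evF F q v = val q.1.2 v - val q.1.1 v}
  add_mem' := by
    intro v w hv hw F q
    rw [map_add, map_add, map_add, hv F q, hw F q]
    ring
  zero_mem' := by
    intro F q
    simp
  smul_mem' := by
    intro c v hv F q
    rw [map_smul, map_smul, map_smul, hv F q, smul_sub]

lemma Zs_closed : IsClosed (Zs : Set Big) := by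
  have : (Zs : Set Big) = ⋂ (F : Fam), ⋂ (q : {q // q ∈ F.1}),
      {v | evF F q v = val q.1.2 v - val q.1.1 v} := by
    ext v
    simp only [Set.mem_iInter]
    rfl
  rw [this]
  refine isClosed_iInter fun F => isClosed_iInter fun q => isClosed_eq ?_ ?_
  · exact (evF F q).continuous
  · exact (val q.1.2).continuous.sub (val q.1.1).continuous

/-- The predual. -/
noncomputable abbrev Z := Zs

noncomputable instance : CompleteSpace Z := Zs_closed.completeSpace_coe

/-- The value of an element of `Z` at a node. -/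
noncomputable def δ (t : List ℕ) : StrongDual ℝ Z := (val t).comp Zs.subtypeL

lemma δ_nil : δ [] = 0 := by
  unfold δ val
  simp

lemma V2_δ (v : Z) : V2 (fun t => δ t v) (‖v‖ ^ 2) := by
  intro F hF
  have h1 : ∑ q ∈ F, (δ q.2 v - δ q.1 v) ^ 2 = ‖v.1 ⟨F, hF⟩‖ ^ 2 := by
    rw [EuclideanSpace.norm_eq, Real.sq_sqrt (Finset.sum_nonneg fun _ _ => sq_nonneg _)]
    rw [← Finset.sum_coe_sort F]
    refine Finset.sum_congr rfl fun q _ => ?_
    have := v.2 ⟨F, hF⟩ q
    rw [evF_apply] at this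
    rw [this, Real.norm_eq_abs, sq_abs]
    rfl
  rw [h1]
  exact pow_le_pow_left₀ (norm_nonneg _)
    (lp.norm_apply_le_norm ENNReal.top_ne_zero v.1 ⟨F, hF⟩) 2

lemma mk_bound {η : List ℕ → ℝ} {M : ℝ} (h : V2 η M) (F : Fam) :
    ‖(WithLp.toLp 2 (fun q : {q // q ∈ F.1} => η q.1.2 - η q.1.1) : Fib F)‖ ≤ √M := by
  rw [EuclideanSpace.norm_eq]
  apply Real.sqrt_le_sqrt
  have := h F.1 F.2
  rw [← Finset.sum_coe_sort F.1] at this
  refine le_trans (le_of_eq ?_) this
  refine Finset.sum_congr rfl fun q _ => ?_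
  simp [sq_abs]

/-- The element of the big space given by a function. -/
noncomputable def mkB (η : List ℕ → ℝ) (h : ∃ M, V2 η M) : Big :=
  ⟨fun F => WithLp.toLp 2 (fun q => η q.1.2 - η q.1.1), memℓp_infty (by
    obtain ⟨M, hM⟩ := h
    refine ⟨√M, ?_⟩
    rintro x ⟨F, rfl⟩
    exact mk_bound hM F)⟩

lemma mkB_apply (η : List ℕ → ℝ) (h : ∃ M, V2 η M) (F : Fam) (q : {q // q ∈ F.1}) :
    evF F q (mkB η h) = η q.1.2 - η q.1.1 := rfl

lemma val_mkB (η : List ℕ → ℝ) (h : ∃ M, V2 η M) (h0 : η [] = 0) {t : List ℕ} (ht : good t) :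
    val t (mkB η h) = η t := by
  unfold val
  by_cases hn : t = []
  · subst hn
    simp [h0]
  · rw [dif_pos ⟨ht, hn⟩, mkB_apply]
    simp [h0]

/-- The element of `Z` given by a function. -/
noncomputable def mkZ (η : List ℕ → ℝ) (h0 : η [] = 0) (h : ∃ M, V2 η M) : Z :=
  ⟨mkB η h, by
    intro F q
    obtain ⟨h1, h2, h3⟩ := F.2.1 q.1 q.2
    rw [mkB_apply, val_mkB η h h0 h3, val_mkB η h h0 (good_suffix h1 h3)]⟩

lemma δ_mkZ {η : List ℕ → ℝ} {h0 : η [] = 0} {h : ∃ M, V2 η M} {t : List ℕ} (ht : good t) :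
    δ t (mkZ η h0 h) = η t := val_mkB η h h0 ht

lemma norm_mkZ_le {η : List ℕ → ℝ} {h0 : η [] = 0} {h : ∃ M, V2 η M} {M : ℝ} (hM : V2 η M) :
    ‖mkZ η h0 h‖ ≤ √M :=
  lp.norm_le_of_forall_le (Real.sqrt_nonneg _) fun F => mk_bound hM F

lemma Z_ext {v w : Z} (h : ∀ t, good t → δ t v = δ t w) : v = w := by
  apply Subtype.ext
  apply lp.ext
  funext F
  ext q
  have h1 := v.2 F q
  have h2 := w.2 F q
  rw [evF_apply] at h1 h2
  obtain ⟨g1, g2, g3⟩ := F.2.1 q.1 q.2
  rw [h1, h2]
  have e1 : val q.1.2 v.1 = val q.1.2 w.1 := h _ g3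
  have e2 : val q.1.1 v.1 = val q.1.1 w.1 := h _ (good_suffix g1 g3)
  rw [e1, e2]

lemma norm_le_of_V2 {v : Z} {M : ℝ} (h : V2 (fun t => δ t v) M) : ‖v‖ ≤ √M := by
  have h0 : (fun t => δ t v) [] = 0 := by simp [δ_nil]
  have : v = mkZ (fun t => δ t v) h0 ⟨M, h⟩ :=
    Z_ext fun t ht => (δ_mkZ (η := fun t => δ t v) ht).symm
  rw [this]
  exact norm_mkZ_le h

lemma δ_le (t : List ℕ) (v : Z) : |δ t v| ≤ ‖v‖ := by
  by_cases h : good t ∧ t ≠ []
  · have : δ t v = evF ⟨{([], t)}, sing_fam h.1 h.2⟩ ⟨([], t), Finset.mem_singleton_self _⟩ v.1 := by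
      unfold δ val
      rw [dif_pos h]; rfl
    rw [this]
    exact evF_norm_le _ _ _
  · have : δ t = 0 := by
      unfold δ val
      rw [dif_neg h]; simp
    rw [this]; simp

lemma δ_norm_le (t : List ℕ) : ‖δ t‖ ≤ 1 :=
  ContinuousLinearMap.opNorm_le_bound _ zero_le_one fun v => by
    rw [one_mul]; exact δ_le t v

/-- An abstract description of the predual space. -/
structure Model (E : Type) [NormedAddCommGroup E] [NormedSpace ℝ E] where
  /-- evaluation at a node -/
  dl : List ℕ → StrongDual ℝ E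
  nil : dl [] = 0
  bad : ∀ t, ¬ good t → dl t = 0
  var : ∀ v, V2 (fun t => dl t v) (‖v‖ ^ 2)
  norm_le : ∀ v M, V2 (fun t => dl t v) M → ‖v‖ ≤ √M
  ext : ∀ v w, (∀ t, good t → dl t v = dl t w) → v = w
  ex : ∀ η : List ℕ → ℝ, η [] = 0 → (∃ M, V2 η M) → ∃ v, ∀ t, good t → dl t v = η t

theorem exists_model : ∃ (E : Type) (_ : NormedAddCommGroup E) (_ : NormedSpace ℝ E),
    CompleteSpace E ∧ Nonempty (Model E) := by
  refine ⟨Z, inferInstance, inferInstance, inferInstance, ⟨?_⟩⟩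
  exact
    { dl := δ
      nil := δ_nil
      bad := fun t ht => by
        unfold δ val
        rw [dif_neg (fun h => ht h.1)]; simp
      var := V2_δ
      norm_le := fun v M h => norm_le_of_V2 h
      ext := fun v w h => Z_ext h
      ex := fun η h0 h => ⟨mkZ η h0 h, fun t ht => δ_mkZ ht⟩ }

end Vale.Agent.P069
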