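import Mathlib
import Vale.Agent.P069.Space

namespace Vale.Agent.P069

open scoped ENNReal RealInnerProductSpace

lemma V2_congr {η η' : List ℕ → ℝ} {M : ℝ} (h : ∀ t, good t → η t = η' t) (hV : V2 η M) :
    V2 η' M := by
  intro F hF
  have := hV F hF
  rw [Finset.sum_congr rfl fun q hq => ?_] at this
  · exact this
  · obtain ⟨h1, h2, h3⟩ := hF.1 q hq
    rw [h _ h3, h _ (good_suffix h1 h3)]

/-- The Hilbert space of coordinates. -/
noncomputable abbrev H := lp (fun _ : List ℕ => ℝ) 2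

variable {Z : Type} [NormedAddCommGroup Z] [NormedSpace ℝ Z] (m : Model Z)

lemma crd_mem (v : Z) : Memℓp (crd (fun t => m.dl t v)) 2 := by
  refine memℓp_gen' (C := ‖v‖ ^ 2) fun A => ?_
  have := crd_sum (m.var v) A
  refine le_trans (le_of_eq (Finset.sum_congr rfl fun t _ => ?_)) this
  simp [sq_abs]

/-- The coordinate operator as a linear map. -/
noncomputable def crdL0 : Z →ₗ[ℝ] H where
  toFun := fun v => ⟨crd (fun t => m.dl t v), crd_mem m v⟩
  map_add' := by
    intro v w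
    apply lp.ext
    funext t
    show crd (fun t => m.dl t (v + w)) t = crd (fun t => m.dl t v) t + crd (fun t => m.dl t w) t
    unfold crd
    by_cases ht : good t
    · simp only [ht, if_true, map_add]; ring
    · simp [ht]
  map_smul' := by
    intro c v
    apply lp.ext
    funext t
    show crd (fun t => m.dl t (c • v)) t = c • crd (fun t => m.dl t v) t
    unfold crd
    by_cases ht : good t
    · simp only [ht, if_true, map_smul, smul_eq_mul]; ring
    · simp [ht]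

lemma crdL0_apply (v : Z) (t : List ℕ) : (crdL0 m v : H) t = crd (fun t => m.dl t v) t := rfl

lemma crdL0_bound (v : Z) : ‖crdL0 m v‖ ≤ 1 * ‖v‖ := by
  rw [one_mul]
  refine lp.norm_le_of_forall_sum_le (by norm_num) (norm_nonneg _) fun A => ?_
  have := crd_sum (m.var v) A
  refine le_trans (le_of_eq (Finset.sum_congr rfl fun t _ => ?_)) (this.trans (le_of_eq ?_))
  · rw [crdL0_apply]
    simp [sq_abs]
  · simp

/-- The coordinate operator. -/
noncomputable def crdL : Z →L[ℝ] H := (crdL0 m).mkContinuous 1 (crdL0_bound m)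

lemma crdL_apply (v : Z) (t : List ℕ) : (crdL m v : H) t = crd (fun t => m.dl t v) t := rfl

lemma cum_add (a b : List ℕ → ℝ) (t : List ℕ) :
    cum (fun t => a t + b t) t = cum a t + cum b t := by
  induction t with
  | nil => simp [cum]
  | cons c s ih => simp only [cum, ih]; ring

lemma cum_smul (c : ℝ) (a : List ℕ → ℝ) (t : List ℕ) :
    cum (fun t => c * a t) t = c * cum a t := by
  induction t with
  | nil => simp [cum]
  | cons d s ih => simp only [cum, ih]; ring

lemma H_sum (a : H) (A : Finset (List ℕ)) : ∑ t ∈ A, (a t) ^ 2 ≤ ‖a‖ ^ 2 := by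
  have := lp.sum_rpow_le_norm_rpow (p := 2) (by norm_num) a A
  refine le_trans (le_of_eq (Finset.sum_congr rfl fun t _ => ?_)) (this.trans (le_of_eq ?_))
  · simp [sq_abs]
  · simp

/-- The function synthesised from coordinates. -/
noncomputable def syf (N : ℕ) (a : H) : List ℕ → ℝ :=
  fun t => if lab t ≤ N then cum (fun t => a t) t else 0

lemma V2_synth (N : ℕ) (a : H) : V2 (syf N a) ((N + 1) * ‖a‖ ^ 2) :=
  V2_cum N (H_sum a)

lemma syf_nil (N : ℕ) (a : H) : syf N a [] = 0 := by simp [syf, cum]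

/-- The element with prescribed values. -/
noncomputable def Model.mk' (η : List ℕ → ℝ) (h0 : η [] = 0) (h : ∃ M, V2 η M) : Z :=
  (m.ex η h0 h).choose

variable {m} in
lemma Model.dl_mk' {η : List ℕ → ℝ} {h0 : η [] = 0} {h : ∃ M, V2 η M} {t : List ℕ}
    (ht : good t) : m.dl t (m.mk' η h0 h) = η t :=
  (m.ex η h0 h).choose_spec t ht

variable {m} in
lemma Model.norm_mk' {η : List ℕ → ℝ} {h0 : η [] = 0} {h : ∃ M, V2 η M} {M : ℝ}
    (hM : V2 η M) : ‖m.mk' η h0 h‖ ≤ √M :=
  m.norm_le _ _ (V2_congr (fun _ ht => (Model.dl_mk' (m := m) ht).symm) hM)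

/-- The synthesis operator as a linear map. -/
noncomputable def synth0 (N : ℕ) : H →ₗ[ℝ] Z where
  toFun := fun a => m.mk' (syf N a) (syf_nil N a) ⟨_, V2_synth N a⟩
  map_add' := by
    intro a b
    apply m.ext
    intro t ht
    rw [map_add, Model.dl_mk' ht, Model.dl_mk' ht, Model.dl_mk' ht]
    unfold syf
    by_cases hl : lab t ≤ N
    · simp only [hl, if_true]
      exact cum_add _ _ t
    · simp [hl]
  map_smul' := by
    intro c a
    apply m.ext
    intro t ht
    rw [map_smul, Model.dl_mk' ht, Model.dl_mk' ht]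
    unfold syf
    by_cases hl : lab t ≤ N
    · simp only [hl, if_true]
      exact cum_smul _ _ t
    · simp [hl]

lemma synth0_bound (N : ℕ) (a : H) : ‖synth0 m N a‖ ≤ √(N + 1) * ‖a‖ := by
  refine (Model.norm_mk' (m := m) (h0 := syf_nil N a) (h := ⟨_, V2_synth N a⟩)
    (V2_synth N a)).trans (le_of_eq ?_)
  rw [Real.sqrt_mul (by positivity), Real.sqrt_sq (norm_nonneg _)]

/-- The synthesis operator on the first trees. -/
noncomputable def synth (N : ℕ) : H →L[ℝ] Z :=
  (synth0 m N).mkContinuous (√(N + 1)) (synth0_bound m N)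

lemma synth_apply (N : ℕ) (a : H) {t : List ℕ} (ht : good t) :
    m.dl t (synth m N a) = if lab t ≤ N then cum (fun t => a t) t else 0 :=
  Model.dl_mk' (m := m) (h0 := syf_nil N a) (h := ⟨_, V2_synth N a⟩) ht

/-- Restriction to the first trees. -/
noncomputable def PN (N : ℕ) : Z →L[ℝ] Z := (synth m N).comp (crdL m)

lemma PN_apply (N : ℕ) (v : Z) {t : List ℕ} (ht : good t) :
    m.dl t (PN m N v) = if lab t ≤ N then m.dl t v else 0 := by
  unfold PN
  rw [ContinuousLinearMap.comp_apply, synth_apply m N _ ht]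
  by_cases hl : lab t ≤ N
  · simp only [hl, if_true]
    exact cum_crd (η := fun t => m.dl t v) (by simp [m.nil]) ht
  · simp [hl]

/-- The closed span of the evaluations. -/
noncomputable def W : Submodule ℝ (StrongDual ℝ Z) :=
  (Submodule.span ℝ (Set.range m.dl)).topologicalClosure

lemma δ_mem_W (t : List ℕ) : m.dl t ∈ W m :=
  Submodule.le_topologicalClosure _ (Submodule.subset_span ⟨t, rfl⟩)

lemma W_closed : IsClosed (W m : Set (StrongDual ℝ Z)) :=
  Submodule.isClosed_topologicalClosure _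

/-- Precomposition with the coordinate operator. -/
noncomputable def preC : (H →L[ℝ] ℝ) →L[ℝ] (Z →L[ℝ] ℝ) :=
  (ContinuousLinearMap.compL ℝ Z H ℝ).flip (crdL m)

lemma preC_apply (g : H →L[ℝ] ℝ) : preC m g = g.comp (crdL m) := rfl

open Classical in
lemma preC_single (t : List ℕ) (c : ℝ) :
    preC m (innerSL ℝ (lp.single 2 t c : H)) =
      if good t then c • (m.dl t - m.dl t.tail) else 0 := by
  ext v
  rw [preC_apply, ContinuousLinearMap.comp_apply, innerSL_apply_apply, lp.inner_single_left,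
    crdL_apply]
  unfold crd
  by_cases ht : good t
  · simp [ht, mul_comm]
  · simp [ht]

open Classical in
lemma comp_crdL_mem (g : H →L[ℝ] ℝ) : g.comp (crdL m) ∈ W m := by
  set a : H := (InnerProductSpace.toDual ℝ H).symm g with ha
  have hga : g = innerSL ℝ a := by
    ext x
    rw [innerSL_apply_apply, ha, InnerProductSpace.toDual_symm_apply]
  have hs : HasSum (fun i => (lp.single 2 i (a i) : H)) a :=
    lp.hasSum_single (p := 2) (by norm_num) a
  have hs2 : HasSum (fun i => innerSL ℝ (lp.single 2 i (a i) : H)) (innerSL ℝ a) :=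
    hs.map (innerSL ℝ : H →L⋆[ℝ] H →L[ℝ] ℝ) (innerSL ℝ : H →L⋆[ℝ] H →L[ℝ] ℝ).continuous
  have hs3 : HasSum (fun i => preC m (innerSL ℝ (lp.single 2 i (a i) : H)))
      (preC m (innerSL ℝ a)) := hs2.map (preC m) (preC m).continuous
  rw [← hga, preC_apply] at hs3
  refine (W_closed m).mem_of_tendsto hs3 (Filter.Eventually.of_forall fun A => ?_)
  refine Submodule.sum_mem _ fun t _ => ?_
  rw [preC_single]
  split_ifs
  · exact Submodule.smul_mem _ _ (Submodule.sub_mem _ (δ_mem_W m _) (δ_mem_W m _))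
  · exact Submodule.zero_mem _

lemma comp_PN_mem (f : StrongDual ℝ Z) (N : ℕ) : f.comp (PN m N) ∈ W m := by
  have : f.comp (PN m N) = (f.comp (synth m N)).comp (crdL m) := rfl
  rw [this]
  exact comp_crdL_mem m _

lemma tail_small (v : Z) {κ : ℝ} (hκ : 0 < κ) : ∃ N, ‖v - PN m N v‖ ≤ κ := by
  have hex : ∃ F, IsFam F ∧ ‖v‖ ^ 2 - κ ^ 2 < ∑ q ∈ F, (m.dl q.2 v - m.dl q.1 v) ^ 2 := by
    by_contra hcon
    push Not at hcon
    have hV : V2 (fun t => m.dl t v) (‖v‖ ^ 2 - κ ^ 2) := fun F hF => hcon F hF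
    have h0 := hV.nonneg
    have h1 := m.norm_le _ _ hV
    have h2 := pow_le_pow_left₀ (norm_nonneg v) h1 2
    rw [Real.sq_sqrt h0] at h2
    have := pow_pos hκ 2
    linarith
  obtain ⟨F, hF, hFs⟩ := hex
  refine ⟨F.sup (fun q => lab q.2), ?_⟩
  set N := F.sup (fun q => lab q.2) with hN
  have h3 := V2_tail (m.var v) (by simp [m.nil]) hF
    (fun q hq => Finset.le_sup (f := fun q : List ℕ × List ℕ => lab q.2) hq)
  rw [← hN] at h3
  have h4 : V2 (fun t => m.dl t (v - PN m N v)) (κ ^ 2) := by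
    refine V2.mono (V2_congr ?_ h3) (by linarith)
    intro t ht
    rw [map_sub, PN_apply m N v ht]
    by_cases hl : lab t ≤ N <;> simp [hl]
  have := m.norm_le _ _ h4
  rwa [Real.sqrt_sq hκ.le] at this

lemma comb_norm (N : ℕ) (v w : Z) (hv : ‖v‖ ≤ 1) (hw : ‖w‖ ≤ 1) (s : ℝ) :
    ‖PN m N v + s • (w - PN m N w)‖ ≤ √(1 + s ^ 2) := by
  apply m.norm_le
  have h1 : V2 (fun t => m.dl t v) 1 := (m.var v).mono (by
    have := pow_le_one₀ (n := 2) (norm_nonneg v) hv; exact this)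
  have h2 : V2 (fun t => m.dl t w) 1 := (m.var w).mono (by
    have := pow_le_one₀ (n := 2) (norm_nonneg w) hw; exact this)
  have h3 := V2_comb h1 h2 (by simp [m.nil]) (by simp [m.nil]) N 1 s
  refine V2_congr ?_ (h3.mono (by ring_nf; rfl))
  intro t ht
  rw [map_add, map_smul, map_sub, PN_apply m N v ht, PN_apply m N w ht]
  by_cases hl : lab t ≤ N <;> simp [hl]

lemma exists_norming {E : Type*} [NormedAddCommGroup E] [NormedSpace ℝ E] (f : StrongDual ℝ E)
    {κ : ℝ} (hκ : 0 < κ) : ∃ v : E, ‖v‖ ≤ 1 ∧ ‖f‖ - κ ≤ f v := by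
  obtain ⟨v, hv, hfv⟩ := f.exists_lt_apply_of_lt_opNorm (r := ‖f‖ - κ) (by linarith)
  rcases le_total 0 (f v) with h | h
  · refine ⟨v, hv.le, ?_⟩
    rw [Real.norm_eq_abs, abs_of_nonneg h] at hfv
    exact hfv.le
  · refine ⟨-v, by rw [norm_neg]; exact hv.le, ?_⟩
    rw [Real.norm_eq_abs, abs_of_nonpos h] at hfv
    rw [map_neg]
    exact hfv.le

lemma PN_approx (f : StrongDual ℝ Z) {ε : ℝ} (hε : 0 < ε) :
    ∃ N, ‖f - f.comp (PN m N)‖ ≤ ε := by
  set K := ‖f‖ with hK
  have hK0 : 0 ≤ K := norm_nonneg f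
  set s := ε / (1 + K) with hs
  have hs0 : 0 < s := by positivity
  set κ := s ^ 2 / 2 with hκ
  have hκ0 : 0 < κ := by positivity
  obtain ⟨v0, hv0, hfv0⟩ := exists_norming f hκ0
  obtain ⟨N, hN⟩ := tail_small m v0 hκ0
  refine ⟨N, ?_⟩
  have hf1 : f (v0 - PN m N v0) ≤ K * κ :=
    (le_abs_self _).trans ((f.le_opNorm _).trans (mul_le_mul_of_nonneg_left hN hK0))
  have hf2 : K - κ - K * κ ≤ f (PN m N v0) := by
    rw [map_sub] at hf1
    linarith
  have hmain : ∀ v : Z, ‖v‖ ≤ 1 → f (v - PN m N v) ≤ ε := by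
    intro v hv
    have h1 : f (PN m N v0 + s • (v - PN m N v)) ≤ K * √(1 + s ^ 2) :=
      (le_abs_self _).trans ((f.le_opNorm _).trans
        (mul_le_mul_of_nonneg_left (comb_norm m N v0 v hv0 hv s) hK0))
    have h2 : √(1 + s ^ 2) ≤ 1 + s ^ 2 / 2 := by
      rw [Real.sqrt_le_left (by positivity)]
      nlinarith [sq_nonneg (s ^ 2)]
    have h3 := mul_le_mul_of_nonneg_left h2 hK0
    rw [map_add, map_smul, smul_eq_mul] at h1
    have h4 : s * f (v - PN m N v) ≤ s * ε := by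
      have e1 : s * (1 + K) = ε := by rw [hs]; field_simp
      have e2 : s * ε = s ^ 2 * (1 + K) := by rw [← e1]; ring
      rw [e2]
      have : K * (1 + s ^ 2 / 2) - (K - κ - K * κ) = s ^ 2 * (1 + K) - s ^ 2 / 2 := by
        rw [hκ]; ring
      have := sq_nonneg s
      linarith
    exact le_of_mul_le_mul_left h4 hs0
  refine ContinuousLinearMap.opNorm_le_of_unit_norm hε.le ?_
  intro v hv
  rw [Real.norm_eq_abs]
  have e : (f - f.comp (PN m N)) v = f (v - PN m N v) := by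
    rw [map_sub]; rfl
  rw [e, abs_le]
  constructor
  · have := hmain (-v) (by rw [norm_neg]; exact hv.le)
    rw [map_neg, sub_neg_eq_add, neg_add_eq_sub, ← neg_sub v, map_neg] at this
    linarith
  · exact hmain v hv.le

/-- The evaluations span a dense subspace of the dual. -/
lemma W_top (f : StrongDual ℝ Z) : f ∈ W m := by
  have : f ∈ closure (W m : Set (StrongDual ℝ Z)) := by
    rw [Metric.mem_closure_iff]
    intro ε hε
    obtain ⟨N, hN⟩ := PN_approx m f (half_pos hε)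
    refine ⟨_, comp_PN_mem m f N, ?_⟩
    rw [dist_eq_norm]
    linarith
  rwa [(W_closed m).closure_eq] at this

/-- The square variation estimate for bidual elements. -/
lemma V2_bidual (Ψ : StrongDual ℝ (StrongDual ℝ Z)) : V2 (fun t => Ψ (m.dl t)) (‖Ψ‖ ^ 2) := by
  intro F hF
  set x : List ℕ × List ℕ → ℝ := fun q => Ψ (m.dl q.2) - Ψ (m.dl q.1) with hx
  set S := ∑ q ∈ F, x q ^ 2 with hS
  have hS0 : 0 ≤ S := Finset.sum_nonneg fun _ _ => sq_nonneg _
  have h1 : S = Ψ (∑ q ∈ F, x q • (m.dl q.2 - m.dl q.1)) := by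
    rw [map_sum, hS]
    refine Finset.sum_congr rfl fun q _ => ?_
    rw [map_smul, map_sub, smul_eq_mul, hx]
    ring
  have h2 : ‖∑ q ∈ F, x q • (m.dl q.2 - m.dl q.1)‖ ≤ √S := by
    refine ContinuousLinearMap.opNorm_le_bound _ (Real.sqrt_nonneg _) fun v => ?_
    have e : (∑ q ∈ F, x q • (m.dl q.2 - m.dl q.1)) v =
        ∑ q ∈ F, x q * (m.dl q.2 v - m.dl q.1 v) := by
      simp
    rw [e, Real.norm_eq_abs]
    have hcs := Finset.sum_mul_sq_le_sq_mul_sq F x (fun q => m.dl q.2 v - m.dl q.1 v)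
    have hv := m.var v F hF
    have h3 : (∑ q ∈ F, x q * (m.dl q.2 v - m.dl q.1 v)) ^ 2 ≤ S * ‖v‖ ^ 2 :=
      hcs.trans (mul_le_mul_of_nonneg_left hv hS0)
    have h4 := Real.abs_le_sqrt h3
    rwa [Real.sqrt_mul hS0, Real.sqrt_sq (norm_nonneg _)] at h4
  have h5 : S ≤ ‖Ψ‖ * √S := by
    calc S = Ψ (∑ q ∈ F, x q • (m.dl q.2 - m.dl q.1)) := h1
      _ ≤ |Ψ (∑ q ∈ F, x q • (m.dl q.2 - m.dl q.1))| := le_abs_self _
      _ ≤ ‖Ψ‖ * ‖∑ q ∈ F, x q • (m.dl q.2 - m.dl q.1)‖ := Ψ.le_opNorm _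
      _ ≤ ‖Ψ‖ * √S := mul_le_mul_of_nonneg_left h2 Ψ.opNorm_nonneg
  show S ≤ ‖Ψ‖ ^ 2
  have h6 : √S * √S = S := Real.mul_self_sqrt hS0
  have h7 : √S ≤ ‖Ψ‖ := by
    by_contra hcon
    rw [not_le] at hcon
    have : 0 < √S := Ψ.opNorm_nonneg.trans_lt hcon
    nlinarith
  calc S = √S ^ 2 := by rw [sq, h6]
    _ ≤ ‖Ψ‖ ^ 2 := pow_le_pow_left₀ (Real.sqrt_nonneg _) h7 2

include m in
/-- `Z` is reflexive. -/
lemma Z_reflexive (Ψ : StrongDual ℝ (StrongDual ℝ Z)) :
    ∃ v : Z, ∀ f : StrongDual ℝ Z, Ψ f = f v := by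
  have h0 : (fun t => Ψ (m.dl t)) [] = 0 := by simp [m.nil]
  obtain ⟨v, hv⟩ := m.ex _ h0 ⟨_, V2_bidual m Ψ⟩
  refine ⟨v, fun f => ?_⟩
  set D : StrongDual ℝ (StrongDual ℝ Z) := Ψ - NormedSpace.inclusionInDoubleDual ℝ Z v with hD
  have hDa : ∀ f, D f = Ψ f - f v := fun f => rfl
  have hker : W m ≤ (D : StrongDual ℝ Z →ₗ[ℝ] ℝ).ker := by
    refine Submodule.topologicalClosure_minimal _ ?_ D.isClosed_ker
    rw [Submodule.span_le]
    rintro _ ⟨t, rfl⟩
    show D (m.dl t) = 0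
    rw [hDa]
    by_cases ht : good t
    · rw [hv t ht, sub_self]
    · rw [m.bad t ht]; simp
  have h2 : D f = 0 := hker (W_top m f)
  rw [hDa] at h2
  linarith

include m in
/-- The dual of `Z` is reflexive. -/
lemma X_reflexive (Λ : StrongDual ℝ (StrongDual ℝ (StrongDual ℝ Z))) :
    ∃ f : StrongDual ℝ Z, NormedSpace.inclusionInDoubleDual ℝ (StrongDual ℝ Z) f = Λ := by
  refine ⟨Λ.comp (NormedSpace.inclusionInDoubleDual ℝ Z), ?_⟩
  ext Ψ
  obtain ⟨v, hv⟩ := Z_reflexive m Ψ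
  rw [NormedSpace.dual_def, hv]
  have : Ψ = NormedSpace.inclusionInDoubleDual ℝ Z v := by
    ext f
    rw [hv, NormedSpace.dual_def]
  rw [this]
  rfl

end Vale.Agent.P069
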