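import Mathlib
import Vale.Agent.P069.Dens

namespace Vale.Agent.P069

variable {Z : Type} [NormedAddCommGroup Z] [NormedSpace ℝ Z] (m : Model Z)

/-- `f` depends only on the values at the nodes of a finite downset. -/
def Dep (f : StrongDual ℝ Z) : Prop :=
  ∃ R : Set (List ℕ), Down R ∧ R.Finite ∧
    ∀ v w : Z, (∀ r ∈ R, good r → m.dl r v = m.dl r w) → f v = f w

lemma dep_span {f : StrongDual ℝ Z} (hf : f ∈ Submodule.span ℝ (Set.range m.dl)) : Dep m f := by
  induction hf using Submodule.span_induction with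
  | mem x hx =>
    obtain ⟨t, rfl⟩ := hx
    refine ⟨{r | r <:+ t}, ⟨List.nil_suffix, fun h1 h2 => h1.trans h2⟩, ?_, ?_⟩
    · refine (List.finite_toSet t.tails).subset ?_
      intro r hr
      exact (List.mem_tails _ _).2 hr
    · intro v w h
      by_cases ht : good t
      · exact h t (List.suffix_refl t) ht
      · rw [m.bad t ht]; rfl
  | zero =>
    refine ⟨{[]}, ⟨rfl, ?_⟩, Set.finite_singleton _, fun _ _ _ => rfl⟩
    intro a b hab hb
    rw [Set.mem_singleton_iff] at hb ⊢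
    subst hb
    exact List.suffix_nil.1 hab
  | add x y _ _ hx hy =>
    obtain ⟨R, hR, hRf, h1⟩ := hx
    obtain ⟨R', hR', hRf', h2⟩ := hy
    refine ⟨R ∪ R', ⟨Or.inl hR.nil, ?_⟩, hRf.union hRf', ?_⟩
    · rintro a b hab (hb | hb)
      · exact Or.inl (hR.suf hab hb)
      · exact Or.inr (hR'.suf hab hb)
    · intro v w h
      have e1 := h1 v w fun r hr => h r (Or.inl hr)
      have e2 := h2 v w fun r hr => h r (Or.inr hr)
      show x v + y v = x w + y w
      rw [e1, e2]
  | smul c x _ hx =>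
    obtain ⟨R, hR, hRf, h1⟩ := hx
    refine ⟨R, hR, hRf, fun v w h => ?_⟩
    show c • x v = c • x w
    rw [h1 v w h]

/-- The elements of `Z` that are constant off the downset. -/
noncomputable def ZR (R : Set (List ℕ)) : Submodule ℝ Z where
  carrier := {w | ∀ t, good t → m.dl t w = m.dl (pr R t) w}
  add_mem' := by
    intro v w hv hw t ht
    rw [map_add, map_add, hv t ht, hw t ht]
  zero_mem' := by
    intro t _
    simp
  smul_mem' := by
    intro c v hv t ht
    rw [map_smul, map_smul, hv t ht]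

lemma ZR_fin {R : Set (List ℕ)} (hR : Down R) (hf : R.Finite) : FiniteDimensional ℝ (ZR m R) := by
  have : Fintype R := hf.fintype
  let L : ZR m R →ₗ[ℝ] (R → ℝ) :=
    { toFun := fun w r => m.dl r.1 w.1
      map_add' := by intro v w; ext r; simp
      map_smul' := by intro c v; ext r; simp }
  refine FiniteDimensional.of_injective L ?_
  rw [← LinearMap.ker_eq_bot, Submodule.eq_bot_iff]
  intro w hw
  have hw' : ∀ r ∈ R, m.dl r w.1 = 0 := fun r hr => congrFun (LinearMap.mem_ker.1 hw) ⟨r, hr⟩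
  apply Subtype.ext
  apply m.ext
  intro t ht
  rw [w.2 t ht, hw' _ (pr_mem hR t)]
  simp

/-- The annihilator of `ZR`. -/
noncomputable def FR (R : Set (List ℕ)) : Submodule ℝ (StrongDual ℝ Z) where
  carrier := {g | ∀ w ∈ ZR m R, g w = 0}
  add_mem' := by
    intro v w hv hw t ht
    show v t + w t = 0
    rw [hv t ht, hw t ht, add_zero]
  zero_mem' := by
    intro t _
    rfl
  smul_mem' := by
    intro c v hv t ht
    show c • v t = 0
    rw [hv t ht, smul_zero]

lemma FR_closed (R : Set (List ℕ)) : IsClosed (FR m R : Set (StrongDual ℝ Z)) := by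
  have : (FR m R : Set (StrongDual ℝ Z)) = ⋂ (w : Z), ⋂ (_ : w ∈ ZR m R),
      {g | NormedSpace.inclusionInDoubleDual ℝ Z w g = 0} := by
    ext g
    simp only [Set.mem_iInter]
    rfl
  rw [this]
  refine isClosed_iInter fun w => isClosed_iInter fun _ => isClosed_eq ?_ continuous_const
  exact (NormedSpace.inclusionInDoubleDual ℝ Z w).continuous

lemma FR_codim {R : Set (List ℕ)} (hR : Down R) (hf : R.Finite) :
    FiniteDimensional ℝ (StrongDual ℝ Z ⧸ FR m R) := by
  have := ZR_fin m hR hf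
  let ρ : StrongDual ℝ Z →ₗ[ℝ] Module.Dual ℝ (ZR m R) :=
    { toFun := fun g => (g : Z →ₗ[ℝ] ℝ).comp (ZR m R).subtype
      map_add' := by intro v w; ext r; simp
      map_smul' := by intro c v; ext r; simp }
  have hker : FR m R = ρ.ker := by
    ext g
    rw [LinearMap.mem_ker]
    constructor
    · intro hg
      ext w
      exact hg w.1 w.2
    · intro hg w hw
      exact LinearMap.congr_fun hg ⟨w, hw⟩
  rw [hker]
  exact Module.Finite.equiv (LinearMap.quotKerEquivRange ρ).symm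

include m in
/-- The main AMUC estimate for the dual norm. -/
theorem amuc_dual {t : ℝ} (ht : 0 < t) : ∃ c > 0, ∀ f : StrongDual ℝ Z, ‖f‖ = 1 →
    ∃ F : Submodule ℝ (StrongDual ℝ Z), IsClosed (F : Set (StrongDual ℝ Z)) ∧
      FiniteDimensional ℝ (StrongDual ℝ Z ⧸ F) ∧
      ∀ g ∈ F, ‖g‖ = 1 → 1 + c ≤ max ‖f + t • g‖ ‖f - t • g‖ := by
  set a : ℝ := t ^ 2 / 136 with ha
  have ha0 : 0 < a := by positivity
  set e : ℝ := a / (1 + a) with he
  have he0 : 0 < e := by positivity
  have hea : e * (1 + a) = a := by rw [he]; field_simp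
  set ε : ℝ := e / 6 with hε
  have hε0 : 0 < ε := by positivity
  refine ⟨e / 2, by positivity, ?_⟩
  intro f hf
  -- approximation
  have hfW : f ∈ closure (Submodule.span ℝ (Set.range m.dl) : Set (StrongDual ℝ Z)) := W_top m f
  rw [Metric.mem_closure_iff] at hfW
  obtain ⟨f', hf', hff'⟩ := hfW ε hε0
  rw [dist_eq_norm] at hff'
  obtain ⟨R, hR, hRf, hdep⟩ := dep_span m hf'
  refine ⟨FR m R, FR_closed m R, FR_codim m hR hRf, ?_⟩
  intro g hg hgn
  set S := max ‖f + t • g‖ ‖f - t • g‖ with hS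
  obtain ⟨v, hv, hfv⟩ := exists_norming f' hε0
  obtain ⟨u, hu, hgu⟩ := exists_norming g hε0
  rw [hgn] at hgu
  have hf'n : 1 - ε ≤ ‖f'‖ := by
    have := norm_sub_norm_le f f'
    rw [hf] at this
    linarith
  have hV : ∀ w : Z, ‖w‖ ≤ 1 → V2 (fun t => m.dl t w) 1 := fun w hw =>
    (m.var w).mono (pow_le_one₀ (n := 2) (norm_nonneg w) hw)
  have hξ := hV v hv
  have hζ := V2_sub_pr hR (hV u hu)
  have hζR : ∀ s ∈ R, (fun t => m.dl t u - m.dl (pr R t) u) s = 0 := by
    intro s hs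
    simp [pr_of_mem hs]
  set β : ℝ := t / 34 with hβ
  have hβ0 : 0 ≤ β := by positivity
  obtain ⟨ζ1, hζ1, hp, hm⟩ := split hR hξ hζ hζR hβ0
  have hnil : pr R [] = [] := rfl
  obtain ⟨wp, hwp⟩ := m.ex _ (by simp [hnil, m.nil, hζ1 [] hR.nil]) ⟨_, hp⟩
  obtain ⟨wm, hwm⟩ := m.ex _ (by simp [hnil, m.nil, hζ1 [] hR.nil]) ⟨_, hm⟩
  obtain ⟨ub, hub⟩ := m.ex _ (by simp [hnil, m.nil]) ⟨_, V2_pr hR (hV u hu)⟩
  have hwpn : ‖wp‖ ≤ √(1 + 17 * β ^ 2) :=
    m.norm_le _ _ (V2_congr (fun s hs => (hwp s hs).symm) hp)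
  have hwmn : ‖wm‖ ≤ √(1 + 17 * β ^ 2) :=
    m.norm_le _ _ (V2_congr (fun s hs => (hwm s hs).symm) hm)
  have hsq : √(1 + 17 * β ^ 2) ≤ 1 + a := by
    rw [Real.sqrt_le_left (by positivity)]
    have : 17 * β ^ 2 = 2 * a := by rw [hβ, ha]; ring
    rw [this]
    nlinarith [sq_nonneg a]
  have hfp : f' wp = f' v := by
    apply hdep
    intro r hr hgr
    rw [hwp r hgr, pr_of_mem hr, hζ1 r hr]
    simp
  have hfm : f' wm = f' v := by
    apply hdep
    intro r hr hgr
    rw [hwm r hgr, pr_of_mem hr, hζ1 r hr]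
    simp
  have hgub : g ub = 0 := by
    apply hg
    intro s hs
    have hgs : good (pr R s) := good_suffix (pr_suffix R s) hs
    rw [hub s hs, hub _ hgs, pr_of_mem (pr_mem hR s)]
  have hdiff : wp - wm = β • (u - ub) := by
    apply m.ext
    intro s hs
    rw [map_sub, map_smul, map_sub, hwp s hs, hwm s hs, hub s hs, smul_eq_mul]
    ring
  have hgd : g wp - g wm = β * g u := by
    rw [← map_sub, hdiff, map_smul, map_sub, hgub, sub_zero, smul_eq_mul]
  -- norms of the perturbed functionals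
  have n1 : ‖f' + t • g‖ ≤ S + ε := by
    have e1 : f' + t • g = (f + t • g) - (f - f') := by abel
    rw [e1]
    refine (norm_sub_le _ _).trans ?_
    have := le_max_left ‖f + t • g‖ ‖f - t • g‖
    linarith
  have n2 : ‖f' - t • g‖ ≤ S + ε := by
    have e1 : f' - t • g = (f - t • g) - (f - f') := by abel
    rw [e1]
    refine (norm_sub_le _ _).trans ?_
    have := le_max_right ‖f + t • g‖ ‖f - t • g‖
    linarith
  have hSε : 0 ≤ S + ε := (norm_nonneg _).trans n1
  have i1 : f' wp + t * g wp ≤ (S + ε) * (1 + a) := by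
    have h1 : (f' + t • g) wp ≤ ‖f' + t • g‖ * ‖wp‖ :=
      (le_abs_self _).trans ((f' + t • g).le_opNorm wp)
    have h2 : ‖f' + t • g‖ * ‖wp‖ ≤ (S + ε) * (1 + a) :=
      mul_le_mul n1 (hwpn.trans hsq) (norm_nonneg _) hSε
    exact h1.trans h2
  have i2 : f' wm - t * g wm ≤ (S + ε) * (1 + a) := by
    have h1 : (f' - t • g) wm ≤ ‖f' - t • g‖ * ‖wm‖ :=
      (le_abs_self _).trans ((f' - t • g).le_opNorm wm)
    have h2 : ‖f' - t • g‖ * ‖wm‖ ≤ (S + ε) * (1 + a) :=
      mul_le_mul n2 (hwmn.trans hsq) (norm_nonneg _) hSε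
    exact h1.trans h2
  by_contra hcon
  rw [not_le] at hcon
  have htb : t * β = 4 * a := by rw [hβ, ha]; ring
  have j1 : f' wp + t * g wp + (f' wm - t * g wm) = 2 * f' v + 4 * a * g u := by
    have : t * g wp - t * g wm = 4 * a * g u := by
      rw [← mul_sub, hgd, ← mul_assoc, htb]
    rw [hfp, hfm]
    linarith
  have j2 : 4 * a * (1 - ε) ≤ 4 * a * g u := mul_le_mul_of_nonneg_left hgu (by positivity)
  have j3 : (S + ε) * (1 + a) < (1 + e / 2 + ε) * (1 + a) :=
    mul_lt_mul_of_pos_right (by linarith) (by positivity)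
  have j4 : (1 + e / 2 + ε) * (1 + a) = 1 + a + 2 / 3 * a := by
    rw [hε]
    have : (1 + e / 2 + e / 6) * (1 + a) = 1 + a + 2 / 3 * (e * (1 + a)) := by ring
    rw [this, hea]
  have j5 : 2 * ε + 2 * a * ε = a / 3 := by
    rw [hε]
    have : 2 * (e / 6) + 2 * a * (e / 6) = e * (1 + a) / 3 := by ring
    rw [this, hea]
  nlinarith

end Vale.Agent.P069
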