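import Mathlib
import Vale.Agent.P069.Dens

namespace Vale.Agent.P069

open Filter Topology

lemma near_F {E : Type*} [NormedAddCommGroup E] [NormedSpace ℝ E] (F : Submodule ℝ E)
    (hF : IsClosed (F : Set E)) (hfd : FiniteDimensional ℝ (E ⧸ F)) (x : ℕ → E)
    (hx : ∀ Ψ : StrongDual ℝ E, Tendsto (fun j => Ψ (x j)) atTop (𝓝 0)) {η : ℝ} (hη : 0 < η) :
    ∃ j, ∃ z ∈ F, ‖x j - z‖ < η := by
  have : IsClosed (F : Set E) := hF
  let b := Module.finBasis ℝ (E ⧸ F)
  have h1 : ∀ i, Tendsto (fun j => b.repr (F.mkQL (x j)) i) atTop (𝓝 0) := by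
    intro i
    have := hx ((LinearMap.toContinuousLinearMap (b.coord i)).comp F.mkQL)
    exact this
  have h2 : Tendsto (fun j => F.mkQL (x j)) atTop (𝓝 0) := by
    have h3 : Tendsto (fun j => ∑ i, b.repr (F.mkQL (x j)) i • b i) atTop
        (𝓝 (∑ i, (0 : ℝ) • b i)) :=
      tendsto_finsetSum _ fun i _ => (h1 i).smul_const (b i)
    simp only [b.sum_repr, zero_smul, Finset.sum_const_zero] at h3
    exact h3
  have h4 := (tendsto_zero_iff_norm_tendsto_zero.1 h2)
  obtain ⟨j, hj⟩ := (h4.eventually (gt_mem_nhds (half_pos hη))).exists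
  obtain ⟨y, hy1, hy2⟩ := Submodule.Quotient.norm_mk_lt (F.mkQL (x j)) (half_pos hη)
  refine ⟨j, x j - y, ?_, ?_⟩
  · rw [← Submodule.Quotient.mk_eq_zero, Submodule.Quotient.mk_sub, hy1]
    simp
  · rw [sub_sub_cancel]
    linarith

/-- Scaling step: larger perturbations in the same direction increase the norm at least as
much. -/
lemma scale_step {E : Type*} [AddCommGroup E] [Module ℝ E] (N : Seminorm ℝ E) {x y : E}
    {t0 d : ℝ} (ht0 : 0 < t0) (hd : 0 < d) (hx : N x = 1) (hy : t0 ≤ N y)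
    (h : 1 + d ≤ N (x + t0 • ((N y)⁻¹ • y))) : 1 + d ≤ N (x + y) := by
  have hNy : 0 < N y := ht0.trans_le hy
  set l : ℝ := t0 / N y with hl
  have hl0 : 0 < l := by positivity
  have hl1 : l ≤ 1 := by rw [hl, div_le_one hNy]; exact hy
  have e : x + t0 • ((N y)⁻¹ • y) = (1 - l) • x + l • (x + y) := by
    rw [smul_smul, ← div_eq_mul_inv, ← hl, smul_add, sub_smul, one_smul]
    abel
  rw [e] at h
  have h1 : N ((1 - l) • x + l • (x + y)) ≤ (1 - l) * 1 + l * N (x + y) := by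
    refine (map_add_le_add N _ _).trans ?_
    rw [map_smul_eq_mul, map_smul_eq_mul, Real.norm_eq_abs, Real.norm_eq_abs,
      abs_of_nonneg (by linarith), abs_of_pos hl0, hx]
  have h2 : d ≤ l * (N (x + y) - 1) := by linarith
  have h3 : 0 < N (x + y) - 1 := by
    by_contra hcon
    rw [not_lt] at hcon
    nlinarith
  nlinarith

variable {Z : Type} [NormedAddCommGroup Z] [NormedSpace ℝ Z] (m : Model Z)

lemma dl_norm_le {t : List ℕ} (ht : good t) : ‖m.dl t‖ ≤ 1 := by
  refine ContinuousLinearMap.opNorm_le_bound _ zero_le_one fun v => ?_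
  have := (m.var v).sq_le (List.nil_suffix (l := t)) ht
  simp only [m.nil] at this
  rw [one_mul, Real.norm_eq_abs]
  have h2 : (m.dl t v) ^ 2 ≤ ‖v‖ ^ 2 := by simpa using this
  exact abs_le_of_sq_le_sq h2 (norm_nonneg _)

lemma exists_ev {r : List ℕ} (hr : r ≠ []) : ∃ w : Z, ‖w‖ ≤ 1 ∧
    ∀ t, good t → m.dl t w = ev r t := by
  classical
  have h0 : ev r [] = 0 := by
    unfold ev
    rw [if_neg]
    intro h
    exact hr (List.suffix_nil.1 h)
  obtain ⟨w, hw⟩ := m.ex _ h0 ⟨_, V2_ev r⟩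
  refine ⟨w, ?_, hw⟩
  have := m.norm_le w 1 (V2_congr (fun t ht => (hw t ht).symm) (V2_ev r))
  simpa using this

lemma ev_self (r : List ℕ) : ev r r = 1 := by
  classical
  unfold ev
  rw [if_pos (List.suffix_refl r)]

lemma one_le_of_apply {f : StrongDual ℝ Z} {w : Z} (hw : ‖w‖ ≤ 1) (h : f w = 1) : 1 ≤ ‖f‖ := by
  have h1 := f.le_opNorm w
  rw [h] at h1
  have h2 : ‖f‖ * ‖w‖ ≤ ‖f‖ * 1 := mul_le_mul_of_nonneg_left hw (norm_nonneg _)
  have h3 : ‖(1 : ℝ)‖ = 1 := norm_one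
  linarith

lemma one_le_dl {t : List ℕ} (ht : good t) (hn : t ≠ []) : 1 ≤ ‖m.dl t‖ := by
  obtain ⟨w, hw, hw2⟩ := exists_ev m hn
  exact one_le_of_apply hw (by rw [hw2 t ht, ev_self])

lemma one_le_diff {j : ℕ} {s : List ℕ} (ht : good (j :: s)) :
    1 ≤ ‖m.dl (j :: s) - m.dl s‖ := by
  classical
  obtain ⟨w, hw, hw2⟩ := exists_ev m (List.cons_ne_nil j s)
  refine one_le_of_apply hw ?_
  show m.dl (j :: s) w - m.dl s w = 1
  rw [hw2 _ ht, hw2 _ (good_tail ht), ev_self]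
  have : ev (j :: s) s = 0 := by
    unfold ev
    rw [if_neg]
    intro h
    have := h.length_le
    simp at this
  rw [this, sub_zero]

lemma weak_null {s : List ℕ} (hs : ∀ j, good (j :: s)) (Ψ : StrongDual ℝ (StrongDual ℝ Z)) :
    Tendsto (fun j : ℕ => Ψ (m.dl (j :: s) - m.dl s)) atTop (𝓝 0) := by
  have h1 : ∀ J : Finset ℕ, ∑ j ∈ J, (Ψ (m.dl (j :: s) - m.dl s)) ^ 2 ≤ ‖Ψ‖ ^ 2 := by
    intro J
    have := (V2_bidual m Ψ).sum_le J (fun _ => s) (fun j => j :: s)
      (fun j _ => List.suffix_cons j s) (fun j _ => hs j) ?_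
    · simpa only [map_sub] using this
    · have hone : ∀ j : ℕ, ∀ t, inSeg s (j :: s) t → t = j :: s := by
        rintro j t ⟨h1, h2, h3⟩
        rcases List.suffix_cons_iff.1 h3 with h4 | h4
        · exact h4
        · exact absurd (suffix_antisymm h4 h1) h2
      intro i _ j _ hij t ht ht'
      have := (hone i t ht).symm.trans (hone j t ht')
      simp only [List.cons.injEq, and_true] at this
      exact hij this
  have h2 : Summable (fun j : ℕ => (Ψ (m.dl (j :: s) - m.dl s)) ^ 2) :=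
    summable_of_sum_le (fun _ => sq_nonneg _) h1
  have h3 := h2.tendsto_atTop_zero
  have h4 : Tendsto (fun j : ℕ => √((Ψ (m.dl (j :: s) - m.dl s)) ^ 2)) atTop (𝓝 (√0)) :=
    (Real.continuous_sqrt.tendsto 0).comp h3
  rw [Real.sqrt_zero] at h4
  simp only [Real.sqrt_sq_eq_abs] at h4
  exact (tendsto_zero_iff_abs_tendsto_zero _).2 h4

/-- One step up the tree. -/
lemma step {N : Seminorm ℝ (StrongDual ℝ Z)} {c C d : ℝ} (hc : 0 < c) (hC : 0 < C) (hd : 0 < d)
    (h1 : ∀ f, c * ‖f‖ ≤ N f) (h2 : ∀ f, N f ≤ C * ‖f‖)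
    (hN : ∀ x, N x = 1 → ∃ F : Submodule ℝ (StrongDual ℝ Z),
      IsClosed (F : Set (StrongDual ℝ Z)) ∧ FiniteDimensional ℝ (StrongDual ℝ Z ⧸ F) ∧
      ∀ y ∈ F, N y = 1 → 1 + d ≤ N (x + (c / (2 * C)) • y))
    {s : List ℕ} (hne : s ≠ []) (hs : ∀ j, good (j :: s)) :
    ∃ j, (1 + d / 2) * N (m.dl s) ≤ N (m.dl (j :: s)) := by
  have hgs : good s := good_tail (hs 0)
  set μ : ℝ := N (m.dl s) with hμ
  have hμc : c ≤ μ := by
    refine le_trans ?_ (h1 _)
    have := one_le_dl m hgs hne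
    nlinarith
  have hμC : μ ≤ C := by
    refine (h2 _).trans ?_
    have := dl_norm_le m hgs
    nlinarith
  have hμ0 : 0 < μ := hc.trans_le hμc
  obtain ⟨F, hF, hFd, hFy⟩ := hN (μ⁻¹ • m.dl s) (by
    rw [map_smul_eq_mul, Real.norm_eq_abs, abs_of_pos (inv_pos.2 hμ0), ← hμ,
      inv_mul_cancel₀ hμ0.ne'])
  set η : ℝ := min (c / (2 * C)) (d * c / (2 * C)) with hη
  have hη0 : 0 < η := by
    rw [hη]; apply lt_min <;> positivity
  obtain ⟨j, z, hz, hjz⟩ := near_F F hF hFd (fun j => m.dl (j :: s) - m.dl s)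
    (fun Ψ => weak_null m hs Ψ) hη0
  refine ⟨j, ?_⟩
  set e := m.dl (j :: s) - m.dl s with he
  have hNe : c ≤ N e := by
    refine le_trans ?_ (h1 _)
    have := one_le_diff m (hs j)
    nlinarith
  have hNez : N (e - z) ≤ C * η := (h2 _).trans (mul_le_mul_of_nonneg_left hjz.le hC.le)
  have hη1 : C * η ≤ c / 2 := by
    have : η ≤ c / (2 * C) := min_le_left _ _
    calc C * η ≤ C * (c / (2 * C)) := mul_le_mul_of_nonneg_left this hC.le
      _ = c / 2 := by field_simp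
  have hη2 : C * η ≤ d * c / 2 := by
    have : η ≤ d * c / (2 * C) := min_le_right _ _
    calc C * η ≤ C * (d * c / (2 * C)) := mul_le_mul_of_nonneg_left this hC.le
      _ = d * c / 2 := by field_simp
  have hNz : c / 2 ≤ N z := by
    have h3 : N e ≤ N (e - z) + N z := by
      have := map_add_le_add N (e - z) z
      rwa [sub_add_cancel] at this
    linarith
  have hNz0 : 0 < N z := by linarith
  set y : StrongDual ℝ Z := μ⁻¹ • z with hy
  have hNy : N y = μ⁻¹ * N z := by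
    rw [hy, map_smul_eq_mul, Real.norm_eq_abs, abs_of_pos (inv_pos.2 hμ0)]
  have hNy0 : 0 < N y := by rw [hNy]; positivity
  have hyt : c / (2 * C) ≤ N y := by
    rw [hNy, inv_mul_eq_div, div_le_div_iff₀ (by positivity) hμ0]
    nlinarith
  have h4 : 1 + d ≤ N (μ⁻¹ • m.dl s + y) := by
    refine scale_step N (t0 := c / (2 * C)) (by positivity) hd ?_ hyt ?_
    · rw [map_smul_eq_mul, Real.norm_eq_abs, abs_of_pos (inv_pos.2 hμ0), ← hμ,
        inv_mul_cancel₀ hμ0.ne']
    · refine hFy _ (F.smul_mem _ (F.smul_mem _ hz)) ?_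
      rw [map_smul_eq_mul, Real.norm_eq_abs, abs_of_pos (inv_pos.2 hNy0),
        inv_mul_cancel₀ hNy0.ne']
  have h6 : μ • (μ⁻¹ • m.dl s + y) = m.dl s + z := by
    rw [smul_add, smul_smul, mul_inv_cancel₀ hμ0.ne', one_smul, hy, smul_smul,
      mul_inv_cancel₀ hμ0.ne', one_smul]
  have h7 : (1 + d) * μ ≤ N (m.dl s + z) := by
    rw [← h6, map_smul_eq_mul, Real.norm_eq_abs, abs_of_pos hμ0]
    nlinarith
  have h8 : N (m.dl s + z) ≤ N (m.dl (j :: s)) + N (e - z) := by
    have e1 : m.dl s + z = m.dl (j :: s) - (e - z) := by rw [he]; abel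
    rw [e1]
    exact map_sub_le_add N _ _
  nlinarith

/-- No equivalent norm is asymptotically uniformly convex. -/
theorem not_auc {N : Seminorm ℝ (StrongDual ℝ Z)} {c C d : ℝ} (hc : 0 < c) (hC : 0 < C)
    (hd : 0 < d) (h1 : ∀ f, c * ‖f‖ ≤ N f) (h2 : ∀ f, N f ≤ C * ‖f‖)
    (hN : ∀ x, N x = 1 → ∃ F : Submodule ℝ (StrongDual ℝ Z),
      IsClosed (F : Set (StrongDual ℝ Z)) ∧ FiniteDimensional ℝ (StrongDual ℝ Z ⧸ F) ∧
      ∀ y ∈ F, N y = 1 → 1 + d ≤ N (x + (c / (2 * C)) • y))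
    (m : Model Z) : False := by
  obtain ⟨n, hn⟩ := pow_unbounded_of_one_lt (C / c) (by linarith : (1 : ℝ) < 1 + d / 2)
  have key : ∀ k, k ≤ n → ∃ s : List ℕ, s ≠ [] ∧ lab s = n ∧ s.length = k + 1 ∧
      (1 + d / 2) ^ k * c ≤ N (m.dl s) := by
    intro k
    induction k with
    | zero =>
      intro _
      refine ⟨[n], by simp, by simp [lab], by simp, ?_⟩
      rw [pow_zero, one_mul]
      refine le_trans ?_ (h1 _)
      have := one_le_dl m (good_single n) (by simp)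
      nlinarith
    | succ k ih =>
      intro hk
      obtain ⟨s, hs1, hs2, hs3, hs4⟩ := ih (by omega)
      have hlab : ∀ j, lab (j :: s) = n := by
        intro j
        rw [← lab_suffix (List.suffix_cons j s) hs1, hs2]
      have hg : ∀ j, good (j :: s) := by
        intro j
        unfold good
        rw [hlab j, List.length_cons]
        omega
      obtain ⟨j, hj⟩ := step m hc hC hd h1 h2 hN hs1 hg
      refine ⟨j :: s, by simp, hlab j, by simp [hs3], ?_⟩
      refine le_trans ?_ hj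
      rw [pow_succ]
      have : 0 < 1 + d / 2 := by positivity
      nlinarith
  obtain ⟨s, hs1, hs2, hs3, hs4⟩ := key n le_rfl
  have hg : good s := by
    unfold good; omega
  have h3 : N (m.dl s) ≤ C := by
    refine (h2 _).trans ?_
    have := dl_norm_le m hg
    nlinarith
  rw [div_lt_iff₀ hc] at hn
  linarith

end Vale.Agent.P069
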